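import Mathlib

namespace Vale.Agent.Lib.P069

/-- The closed subspaces of finite codimension of a normed space `X`. -/
def cof (X : Type*) [NormedAddCommGroup X] [NormedSpace ℝ X] : Set (Submodule ℝ X) :=
  {F | IsClosed (F : Set X) ∧ FiniteDimensional ℝ (X ⧸ F)}

variable {X : Type*} [NormedAddCommGroup X] [NormedSpace ℝ X]

/-- The modulus of asymptotic uniform convexity of `N` at `t`:
the infimum over `x` with `N x = 1` of the supremum over `F` in `cof X` of the infimum over `y`
in `F` with `N y = 1` of `N (x + t y) - 1`, computed in the extended reals. -/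
noncomputable def aucModulus (N : X → ℝ) (t : ℝ) : EReal :=
  ⨅ x ∈ {x : X | N x = 1}, ⨆ F ∈ cof X, ⨅ y ∈ {y : X | y ∈ F ∧ N y = 1},
    ((N (x + t • y) - 1 : ℝ) : EReal)

/-- The modulus of asymptotic midpoint uniform convexity of `N` at `t`:
the same with `max (N (x + t y)) (N (x - t y)) - 1`, computed in the extended reals. -/
noncomputable def amucModulus (N : X → ℝ) (t : ℝ) : EReal :=
  ⨅ x ∈ {x : X | N x = 1}, ⨆ F ∈ cof X, ⨅ y ∈ {y : X | y ∈ F ∧ N y = 1},
    ((max (N (x + t • y)) (N (x - t • y)) - 1 : ℝ) : EReal)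

/-- `N` is asymptotically uniformly convex. -/
def IsAUC (N : X → ℝ) : Prop := ∀ t : ℝ, 0 < t → 0 < aucModulus N t

/-- `N` is asymptotically midpoint uniformly convex. -/
def IsAMUC (N : X → ℝ) : Prop := ∀ t : ℝ, 0 < t → 0 < amucModulus N t

/-- `N` is a norm on `X` equivalent to the given norm of `X`. -/
structure IsEquivNorm (N : X → ℝ) : Prop where
  add_le : ∀ x y, N (x + y) ≤ N x + N y
  smul : ∀ (r : ℝ) (x : X), N (r • x) = |r| * N x
  bounds : ∃ c C : ℝ, 0 < c ∧ 0 < C ∧ ∀ x, c * ‖x‖ ≤ N x ∧ N x ≤ C * ‖x‖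

end Vale.Agent.Lib.P069
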