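import Mathlib

open Filter Topology

namespace Vale.Agent.Lib.P069

/-- The square-summable real sequences. -/
def SqS (f : ℕ → ℝ) : Prop := Summable fun k => f k ^ 2

/-- The l2 norm of a real sequence (only meaningful on square-summable sequences). -/
noncomputable def l2 (f : ℕ → ℝ) : ℝ := Real.sqrt (∑' k, f k ^ 2)

lemma l2_nonneg (f : ℕ → ℝ) : 0 ≤ l2 f := Real.sqrt_nonneg _

lemma l2_sq {f : ℕ → ℝ} : l2 f ^ 2 = ∑' k, f k ^ 2 :=
  Real.sq_sqrt (tsum_nonneg fun _ => sq_nonneg _)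

lemma SqS.of_abs_le {f g : ℕ → ℝ} (hg : SqS g) (h : ∀ k, |f k| ≤ |g k|) : SqS f := by
  refine Summable.of_nonneg_of_le (fun _ => sq_nonneg _) (fun k => ?_) hg
  exact sq_le_sq.mpr (h k)

lemma SqS.add {f g : ℕ → ℝ} (hf : SqS f) (hg : SqS g) : SqS fun k => f k + g k := by
  refine Summable.of_nonneg_of_le (fun _ => sq_nonneg _) (fun k => ?_) ((hf.mul_left 2).add (hg.mul_left 2))
  nlinarith [sq_nonneg (f k - g k)]

lemma SqS.mul_left {f : ℕ → ℝ} (hf : SqS f) (r : ℝ) : SqS fun k => r * f k := by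
  have : (fun k => (r * f k) ^ 2) = fun k => r ^ 2 * f k ^ 2 := by
    funext k; ring
  unfold SqS
  rw [this]
  exact Summable.mul_left _ hf

lemma l2_mono {f g : ℕ → ℝ} (hg : SqS g) (h : ∀ k, |f k| ≤ |g k|) : l2 f ≤ l2 g := by
  apply Real.sqrt_le_sqrt
  exact Summable.tsum_le_tsum (fun k => sq_le_sq.mpr (h k)) (hg.of_abs_le h) hg

lemma l2_mono' {f g : ℕ → ℝ} (hg : SqS g) (h0 : ∀ k, 0 ≤ f k) (h : ∀ k, f k ≤ g k) : l2 f ≤ l2 g :=
  l2_mono hg fun k => by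
    rw [abs_of_nonneg (h0 k), abs_of_nonneg ((h0 k).trans (h k))]
    exact h k

lemma l2_add_le {f g : ℕ → ℝ} (hf : SqS f) (hg : SqS g) :
    l2 (fun k => f k + g k) ≤ l2 f + l2 g := by
  have hF : 0 ≤ ∑' k, f k ^ 2 := tsum_nonneg fun _ => sq_nonneg _
  have hG : 0 ≤ ∑' k, g k ^ 2 := tsum_nonneg fun _ => sq_nonneg _
  have key : ∀ s : Finset ℕ, ∑ k ∈ s, (f k + g k) ^ 2 ≤ (l2 f + l2 g) ^ 2 := by
    intro s
    have h1 : ∑ k ∈ s, f k ^ 2 ≤ l2 f ^ 2 := by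
      rw [l2_sq]; exact hf.sum_le_tsum s fun _ _ => sq_nonneg _
    have h2 : ∑ k ∈ s, g k ^ 2 ≤ l2 g ^ 2 := by
      rw [l2_sq]; exact hg.sum_le_tsum s fun _ _ => sq_nonneg _
    have h3 : (∑ k ∈ s, f k * g k) ^ 2 ≤ (l2 f * l2 g) ^ 2 := by
      calc (∑ k ∈ s, f k * g k) ^ 2 ≤ (∑ k ∈ s, f k ^ 2) * ∑ k ∈ s, g k ^ 2 :=
            Finset.sum_mul_sq_le_sq_mul_sq s f g
        _ ≤ l2 f ^ 2 * l2 g ^ 2 := by
            apply mul_le_mul h1 h2 (Finset.sum_nonneg fun _ _ => sq_nonneg _) (sq_nonneg _)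
        _ = (l2 f * l2 g) ^ 2 := by ring
    have h4 : ∑ k ∈ s, f k * g k ≤ l2 f * l2 g :=
      abs_le_of_sq_le_sq' h3 (mul_nonneg (l2_nonneg f) (l2_nonneg g)) |>.2
    have h5 : ∑ k ∈ s, (f k + g k) ^ 2
        = ∑ k ∈ s, f k ^ 2 + 2 * ∑ k ∈ s, f k * g k + ∑ k ∈ s, g k ^ 2 := by
      rw [Finset.mul_sum, ← Finset.sum_add_distrib, ← Finset.sum_add_distrib]
      exact Finset.sum_congr rfl fun k _ => by ring
    rw [h5]
    nlinarith
  have hs : SqS fun k => f k + g k := hf.add hg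
  have h6 : ∑' k, (f k + g k) ^ 2 ≤ (l2 f + l2 g) ^ 2 := hs.tsum_le_of_sum_le key
  exact Real.sqrt_le_iff.mpr ⟨add_nonneg (l2_nonneg _) (l2_nonneg _), h6⟩

lemma l2_mul_left {f : ℕ → ℝ} (r : ℝ) : l2 (fun k => r * f k) = |r| * l2 f := by
  unfold l2
  have : (fun k => (r * f k) ^ 2) = fun k => r ^ 2 * f k ^ 2 := by
    funext k; ring
  rw [this, tsum_mul_left, Real.sqrt_mul (sq_nonneg r), Real.sqrt_sq_eq_abs]

lemma holder3 {a v τ : ℕ → ℝ} (ha : ∀ k, 0 ≤ a k) (hv : ∀ k, 0 ≤ v k) (hτ : ∀ k, 0 ≤ τ k)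
    (sa : Summable a) (sv : SqS v) (sτ : SqS τ)
    (h : ∀ k, τ k ^ 3 ≤ a k * v k) :
    l2 τ ^ 3 ≤ (∑' k, a k) * l2 v := by
  have hA : 0 ≤ ∑' k, a k := tsum_nonneg ha
  have key : ∀ s : Finset ℕ, (∑ k ∈ s, τ k ^ 2) ^ 3 ≤ (∑' k, a k) ^ 2 * ∑' k, v k ^ 2 := by
    intro s
    set T := ∑ k ∈ s, τ k ^ 2 with hT
    set A := ∑ k ∈ s, a k with hAs
    set M := ∑ k ∈ s, τ k * v k with hM
    set W := ∑ k ∈ s, v k ^ 2 with hW
    have hT0 : 0 ≤ T := Finset.sum_nonneg fun _ _ => sq_nonneg _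
    have hA0 : 0 ≤ A := Finset.sum_nonneg fun k _ => ha k
    have hW0 : 0 ≤ W := Finset.sum_nonneg fun _ _ => sq_nonneg _
    have hM0 : 0 ≤ M := Finset.sum_nonneg fun k _ => mul_nonneg (hτ k) (hv k)
    have h1 : T ^ 2 ≤ A * M := by
      apply Finset.sum_sq_le_sum_mul_sum_of_sq_le_mul s (fun k _ => ha k)
        (fun k _ => mul_nonneg (hτ k) (hv k))
      intro k _
      have := mul_le_mul_of_nonneg_left (h k) (hτ k)
      nlinarith
    have h2 : M ^ 2 ≤ T * W := Finset.sum_mul_sq_le_sq_mul_sq s τ v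
    have h3 : T ^ 3 ≤ A ^ 2 * W := by
      rcases hT0.eq_or_lt with h0 | h0
      · rw [← h0]
        have : 0 ≤ A ^ 2 * W := mul_nonneg (sq_nonneg _) hW0
        simpa using this
      · have h4 : T ^ 4 ≤ (A * M) ^ 2 := by
          have : (T ^ 2) ^ 2 ≤ (A * M) ^ 2 :=
            pow_le_pow_left₀ (sq_nonneg T) h1 2
          calc T ^ 4 = (T ^ 2) ^ 2 := by ring
            _ ≤ _ := this
        have h5 : (A * M) ^ 2 ≤ A ^ 2 * (T * W) := by
          rw [mul_pow]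
          exact mul_le_mul_of_nonneg_left h2 (sq_nonneg _)
        have h6 : T * T ^ 3 ≤ T * (A ^ 2 * W) := by
          calc T * T ^ 3 = T ^ 4 := by ring
            _ ≤ A ^ 2 * (T * W) := h4.trans h5
            _ = T * (A ^ 2 * W) := by ring
        exact le_of_mul_le_mul_left h6 h0
    have h7 : A ≤ ∑' k, a k := sa.sum_le_tsum s fun k _ => ha k
    have h8 : W ≤ ∑' k, v k ^ 2 := sv.sum_le_tsum s fun _ _ => sq_nonneg _
    calc T ^ 3 ≤ A ^ 2 * W := h3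
      _ ≤ (∑' k, a k) ^ 2 * ∑' k, v k ^ 2 := by
          apply mul_le_mul (pow_le_pow_left₀ hA0 h7 2) h8 hW0 (sq_nonneg _)
  have h9 : (∑' k, τ k ^ 2) ^ 3 ≤ (∑' k, a k) ^ 2 * ∑' k, v k ^ 2 := by
    have ht := (Summable.hasSum sτ).tendsto_sum_nat
    have ht2 : Tendsto (fun n : ℕ => (∑ k ∈ Finset.range n, τ k ^ 2) ^ 3) atTop
        (𝓝 ((∑' k, τ k ^ 2) ^ 3)) := ht.pow 3
    exact le_of_tendsto' ht2 fun n => key _
  have h10 : (l2 τ ^ 3) ^ 2 ≤ ((∑' k, a k) * l2 v) ^ 2 := by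
    calc (l2 τ ^ 3) ^ 2 = (l2 τ ^ 2) ^ 3 := by ring
      _ = (∑' k, τ k ^ 2) ^ 3 := by rw [l2_sq]
      _ ≤ (∑' k, a k) ^ 2 * ∑' k, v k ^ 2 := h9
      _ = (∑' k, a k) ^ 2 * l2 v ^ 2 := by rw [l2_sq]
      _ = _ := by ring
  exact abs_le_of_sq_le_sq' h10 (mul_nonneg hA (l2_nonneg v)) |>.2

/-- One half of the core inequality. -/
lemma core_half {A B G τ : ℕ → ℝ} (hA : ∀ k, 0 ≤ A k) (hB : ∀ k, 0 ≤ B k) (hG : ∀ k, 0 ≤ G k)
    (hτ : ∀ k, 0 ≤ τ k) (sA : SqS A) (sB : SqS B) (sG : SqS G) (sτ : SqS τ)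
    (h : ∀ k, τ k ^ 3 ≤ G k * (2 * A k + G k) * (2 * B k + G k))
    {a g : ℝ} (hg : 0 ≤ g) (hact : -a + l2 B ≤ a + l2 A)
    (h1 : a + l2 (fun k => A k + G k) ≤ a + l2 A + g)
    (h2 : -a + l2 (fun k => B k + G k) ≤ a + l2 A + g) :
    l2 τ ^ 3 ≤ g * (2 * (a + l2 A - a) + g) * (2 * (a + l2 A + a) + g) := by
  set P := l2 A with hP
  set Q := l2 B with hQ
  set P' := l2 (fun k => A k + G k) with hP'
  set Q' := l2 (fun k => B k + G k) with hQ'
  have hP0 : 0 ≤ P := l2_nonneg _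
  have hQ0 : 0 ≤ Q := l2_nonneg _
  have hQ'0 : 0 ≤ Q' := l2_nonneg _
  have hP'0 : 0 ≤ P' := l2_nonneg _
  have sAG : SqS fun k => A k + G k := sA.add sG
  have sBG : SqS fun k => B k + G k := sB.add sG
  -- the summed increments
  set a' : ℕ → ℝ := fun k => G k * (2 * A k + G k) with ha'
  have sa' : Summable a' := by
    have : a' = fun k => (A k + G k) ^ 2 - A k ^ 2 := by
      funext k; simp only [ha']; ring
    rw [this]
    exact Summable.sub sAG sA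
  have hsum : ∑' k, a' k = P' ^ 2 - P ^ 2 := by
    have : a' = fun k => (A k + G k) ^ 2 - A k ^ 2 := by
      funext k; simp only [ha']; ring
    rw [this, hP, hP', l2_sq, l2_sq]
    exact Summable.tsum_sub sAG sA
  set v : ℕ → ℝ := fun k => 2 * B k + G k with hv
  have sv : SqS v := by
    have : v = fun k => B k + (B k + G k) := by
      funext k; simp only [hv]; ring
    rw [this]
    exact sB.add sBG
  have hv0 : ∀ k, 0 ≤ v k := fun k => by
    simp only [hv]; linarith [hB k, hG k]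
  have ha'0 : ∀ k, 0 ≤ a' k := fun k => by
    simp only [ha']
    exact mul_nonneg (hG k) (by linarith [hA k, hG k])
  have hH := holder3 ha'0 hv0 hτ sa' sv sτ fun k => by simpa [ha', hv] using h k
  have hvle : l2 v ≤ Q + Q' := by
    have : v = fun k => B k + (B k + G k) := by
      funext k; simp only [hv]; ring
    rw [this]
    exact l2_add_le sB sBG
  have hA1 : P' ≤ P + g := by linarith
  have hA2 : P' ^ 2 - P ^ 2 ≤ g * (2 * P + g) := by
    have : P' ^ 2 ≤ (P + g) ^ 2 := pow_le_pow_left₀ hP'0 hA1 2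
    nlinarith
  have hA3 : Q + Q' ≤ 2 * (a + P + a) + g := by linarith
  have hsum0 : 0 ≤ ∑' k, a' k := tsum_nonneg ha'0
  have hl : 0 ≤ l2 v := l2_nonneg _
  have e1 : a + P - a = P := by ring
  rw [e1]
  calc l2 τ ^ 3 ≤ (∑' k, a' k) * l2 v := hH
    _ ≤ (∑' k, a' k) * (2 * (a + P + a) + g) :=
        mul_le_mul_of_nonneg_left (hvle.trans hA3) hsum0
    _ ≤ (g * (2 * P + g)) * (2 * (a + P + a) + g) := by
        apply mul_le_mul_of_nonneg_right
        · rw [hsum]; exact hA2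
        · linarith
    _ = _ := by ring

/-- The core inequality behind the uniform midpoint modulus. -/
lemma core {A B G τ : ℕ → ℝ} (hA : ∀ k, 0 ≤ A k) (hB : ∀ k, 0 ≤ B k) (hG : ∀ k, 0 ≤ G k)
    (hτ : ∀ k, 0 ≤ τ k) (sA : SqS A) (sB : SqS B) (sG : SqS G) (sτ : SqS τ)
    (h : ∀ k, τ k ^ 3 ≤ G k * (2 * A k + G k) * (2 * B k + G k))
    {a g N : ℝ} (hg : 0 ≤ g) (hN : N = max (a + l2 A) (-a + l2 B))
    (h1 : a + l2 (fun k => A k + G k) ≤ N + g)
    (h2 : -a + l2 (fun k => B k + G k) ≤ N + g) :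
    l2 τ ^ 3 ≤ g * (2 * (N - a) + g) * (2 * (N + a) + g) := by
  rcases le_total (-a + l2 B) (a + l2 A) with hc | hc
  · have hNe : N = a + l2 A := by rw [hN, max_eq_left hc]
    rw [hNe] at h1 h2 ⊢
    exact core_half hA hB hG hτ sA sB sG sτ h hg hc h1 h2
  · have hNe : N = -a + l2 B := by rw [hN, max_eq_right hc]
    rw [hNe] at h1 h2 ⊢
    have h' : ∀ k, τ k ^ 3 ≤ G k * (2 * B k + G k) * (2 * A k + G k) := fun k => by
      have := h k
      nlinarith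
    have hc' : - (-a) + l2 A ≤ -a + l2 B := by simpa using hc
    have h1' : - (-a) + l2 (fun k => A k + G k) ≤ -a + l2 B + g := by simpa using h1
    have := core_half (a := -a) hB hA hG hτ sB sA sG sτ h' hg hc' h2 h1'
    have e : (-a + l2 B + -a) = -a + l2 B - a := by ring
    have e2 : (-a + l2 B - -a) = -a + l2 B + a := by ring
    rw [e, e2] at this
    calc l2 τ ^ 3 ≤ _ := this
      _ = _ := by ring

end Vale.Agent.Lib.P069
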