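import Mathlib

open Filter Topology
open scoped ENNReal

namespace Vale.Agent.Lib.P069

/-- Reflexivity of a normed space: the canonical map into the bidual is onto. -/
def Refl (X : Type*) [NormedAddCommGroup X] [NormedSpace ℝ X] : Prop :=
  Function.Surjective (NormedSpace.inclusionInDoubleDual ℝ X)

section transfer

variable {X Y : Type*} [NormedAddCommGroup X] [NormedSpace ℝ X]
  [NormedAddCommGroup Y] [NormedSpace ℝ Y]

/-- Precomposition on dual spaces. -/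
noncomputable def preDual (T : X →L[ℝ] Y) : StrongDual ℝ Y →L[ℝ] StrongDual ℝ X :=
  (ContinuousLinearMap.compL ℝ X Y ℝ).flip T

@[simp] lemma preDual_apply (T : X →L[ℝ] Y) (ψ : StrongDual ℝ Y) (x : X) :
    preDual T ψ x = ψ (T x) := rfl

lemma refl_of_equiv (e : X ≃L[ℝ] Y) (h : Refl X) : Refl Y := by
  intro Φ
  obtain ⟨x, hx⟩ := h (Φ.comp (preDual (e.symm : Y →L[ℝ] X)))
  refine ⟨e x, ?_⟩
  ext ψ
  have h1 := congrArg (fun f => f (preDual (e : X →L[ℝ] Y) ψ)) hx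
  simp only [NormedSpace.dual_def, ContinuousLinearMap.comp_apply, preDual_apply,
    ContinuousLinearEquiv.coe_coe] at h1
  rw [NormedSpace.dual_def, h1]
  have h2 : preDual (e.symm : Y →L[ℝ] X) (preDual (e : X →L[ℝ] Y) ψ) = ψ := by
    ext v
    simp [preDual_apply]
  rw [h2]

lemma refl_prod (hX : Refl X) (hY : Refl Y) : Refl (X × Y) := by
  intro Φ
  obtain ⟨x, hx⟩ := hX (Φ.comp (preDual (ContinuousLinearMap.fst ℝ X Y)))
  obtain ⟨y, hy⟩ := hY (Φ.comp (preDual (ContinuousLinearMap.snd ℝ X Y)))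
  refine ⟨(x, y), ?_⟩
  ext φ
  have h1 := congrArg (fun f => f (φ.comp (ContinuousLinearMap.inl ℝ X Y))) hx
  have h2 := congrArg (fun f => f (φ.comp (ContinuousLinearMap.inr ℝ X Y))) hy
  simp only [NormedSpace.dual_def, ContinuousLinearMap.comp_apply,
    ContinuousLinearMap.inl_apply, ContinuousLinearMap.inr_apply] at h1 h2
  have h3 : φ = preDual (ContinuousLinearMap.fst ℝ X Y) (φ.comp (ContinuousLinearMap.inl ℝ X Y))
      + preDual (ContinuousLinearMap.snd ℝ X Y) (φ.comp (ContinuousLinearMap.inr ℝ X Y)) := by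
    refine ContinuousLinearMap.ext fun p => ?_
    have hp : p = (p.1, 0) + (0, p.2) := by simp
    conv_lhs => rw [hp, map_add]
    rfl
  rw [NormedSpace.dual_def]
  have h4 : φ (x, y) = φ (x, 0) + φ (0, y) := by
    rw [← map_add]; simp
  rw [h4, h1, h2, ← map_add, ← h3]

lemma refl_real : Refl ℝ := by
  intro Φ
  refine ⟨Φ (ContinuousLinearMap.id ℝ ℝ), ?_⟩
  ext ξ
  rw [NormedSpace.dual_def]
  have : ξ = ξ 1 • ContinuousLinearMap.id ℝ ℝ := by
    ext; simp
  conv_rhs => rw [this]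
  rw [map_smul]
  have h2 : ξ (Φ (ContinuousLinearMap.id ℝ ℝ)) = Φ (ContinuousLinearMap.id ℝ ℝ) * ξ 1 := by
    have := map_smul ξ (Φ (ContinuousLinearMap.id ℝ ℝ)) (1 : ℝ)
    simpa using this
  rw [h2, smul_eq_mul, mul_comm]

end transfer

section lpsum

variable {Z : ℕ → Type*} [∀ k, NormedAddCommGroup (Z k)] [∀ k, NormedSpace ℝ (Z k)]

lemma evalCLM_apply' (x : lp Z 2) (k : ℕ) : lp.evalCLM ℝ Z 2 k x = x k := rfl

/-- The coordinate estimate for a functional on an l2-sum. -/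
lemma sum_sq_apply_single_le (φ : StrongDual ℝ (lp Z 2)) (v : ∀ k, Z k) (hv : ∀ k, ‖v k‖ ≤ 1)
    (s : Finset ℕ) :
    ∑ k ∈ s, (φ (lp.single 2 k (v k))) ^ 2 ≤ ‖φ‖ ^ 2 := by
  set b : ℕ → ℝ := fun k => φ (lp.single 2 k (v k)) with hb
  set T := ∑ k ∈ s, b k ^ 2 with hT
  have hT0 : 0 ≤ T := Finset.sum_nonneg fun _ _ => sq_nonneg _
  set x : lp Z 2 := ∑ k ∈ s, lp.single 2 k (b k • v k) with hx
  have hφx : φ x = T := by
    rw [hx, map_sum, hT]
    refine Finset.sum_congr rfl fun k _ => ?_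
    rw [lp.single_smul, map_smul, smul_eq_mul, sq]
  have hnorm : ‖x‖ ^ 2 ≤ T := by
    have h1 := lp.norm_sum_single (E := Z) (p := 2) (by norm_num) (fun k => b k • v k) s
    have e : (2 : ℝ≥0∞).toReal = 2 := by norm_num
    rw [e] at h1
    have h2 : ‖x‖ ^ (2 : ℝ) = ‖x‖ ^ 2 := Real.rpow_two _
    rw [← h2, hx, h1]
    refine Finset.sum_le_sum fun k _ => ?_
    rw [Real.rpow_two, norm_smul, mul_pow, Real.norm_eq_abs, sq_abs]
    have : ‖v k‖ ^ 2 ≤ 1 := pow_le_one₀ (norm_nonneg _) (hv k)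
    nlinarith [sq_nonneg (b k)]
  have hle : T ≤ ‖φ‖ * ‖x‖ := by
    rw [← hφx]
    exact (le_abs_self _).trans (φ.le_opNorm x)
  have hT2 : T ^ 2 ≤ ‖φ‖ ^ 2 * T := by
    have h3 : T ^ 2 ≤ (‖φ‖ * ‖x‖) ^ 2 := pow_le_pow_left₀ hT0 hle 2
    calc T ^ 2 ≤ (‖φ‖ * ‖x‖) ^ 2 := h3
      _ = ‖φ‖ ^ 2 * ‖x‖ ^ 2 := by ring
      _ ≤ ‖φ‖ ^ 2 * T := mul_le_mul_of_nonneg_left hnorm (sq_nonneg _)
  rcases hT0.eq_or_lt with h0 | h0
  · rw [← h0]; exact sq_nonneg _
  · have : T * T ≤ T * ‖φ‖ ^ 2 := by nlinarith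
    exact le_of_mul_le_mul_left this h0

/-- For a bounded family of vectors, the values of a functional on the coordinate copies are square summable. -/
lemma summable_sq_apply_single (φ : StrongDual ℝ (lp Z 2)) (v : ∀ k, Z k) (hv : ∀ k, ‖v k‖ ≤ 1) :
    Summable fun k => (φ (lp.single 2 k (v k))) ^ 2 :=
  summable_of_sum_le (fun _ => sq_nonneg _) (sum_sq_apply_single_le φ v hv)

/-- The values of a functional on coordinate copies of a bounded family tend to zero. -/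
lemma tendsto_apply_single (φ : StrongDual ℝ (lp Z 2)) (v : ∀ k, Z k) (hv : ∀ k, ‖v k‖ ≤ 1) :
    Tendsto (fun k => φ (lp.single 2 k (v k))) atTop (𝓝 0) := by
  have h := (summable_sq_apply_single φ v hv).tendsto_atTop_zero
  have h2 : Tendsto (fun k => |φ (lp.single 2 k (v k))|) atTop (𝓝 0) := by
    have h3 := h.sqrt
    simp only [Real.sqrt_zero] at h3
    refine h3.congr fun k => ?_
    rw [Real.sqrt_sq_eq_abs]
  exact (tendsto_zero_iff_norm_tendsto_zero).mpr h2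

/-- The coordinate norms of a functional are square summable. -/
lemma summable_sq_opNorm_comp (φ : StrongDual ℝ (lp Z 2)) :
    Summable fun k => ‖φ.comp (lp.singleContinuousLinearMap ℝ Z 2 k)‖ ^ 2 := by
  set c : ℕ → ℝ := fun k => ‖φ.comp (lp.singleContinuousLinearMap ℝ Z 2 k)‖ with hc
  have hc0 : ∀ k, 0 ≤ c k := fun k => norm_nonneg _
  have hex : ∀ k, ∃ v : Z k, ‖v‖ ≤ 1 ∧ c k / 2 ≤ φ (lp.single 2 k v) := by
    intro k
    by_cases h0 : c k = 0
    · exact ⟨0, by simp, by simp [h0]⟩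
    · have hpos : 0 < c k := lt_of_le_of_ne (hc0 k) (Ne.symm h0)
      have hlt : c k / 2 < c k := by linarith
      obtain ⟨v, hv1, hv2⟩ :=
        (φ.comp (lp.singleContinuousLinearMap ℝ Z 2 k)).exists_lt_apply_of_lt_opNorm hlt
      simp only [ContinuousLinearMap.comp_apply, lp.singleContinuousLinearMap_apply] at hv2
      rw [Real.norm_eq_abs] at hv2
      rcases abs_cases (φ (lp.single 2 k v)) with ⟨h1, _⟩ | ⟨h1, _⟩
      · refine ⟨v, hv1.le, ?_⟩
        rw [h1] at hv2; exact hv2.le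
      · refine ⟨-v, by simpa using hv1.le, ?_⟩
        rw [lp.single_neg, map_neg]
        rw [h1] at hv2; exact hv2.le
  choose v hv1 hv2 using hex
  have hs := summable_sq_apply_single φ v hv1
  refine Summable.of_nonneg_of_le (fun _ => sq_nonneg _) (fun k => ?_) (hs.mul_left 4)
  have := hv2 k
  have h5 : (c k / 2) ^ 2 ≤ (φ (lp.single 2 k (v k))) ^ 2 :=
    pow_le_pow_left₀ (by linarith [hc0 k]) this 2
  nlinarith

lemma sum_sq_norm_le_norm_sq (x : lp Z 2) (s : Finset ℕ) :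
    ∑ k ∈ s, ‖x k‖ ^ 2 ≤ ‖x‖ ^ 2 := by
  have h := lp.sum_rpow_le_norm_rpow (E := Z) (p := 2) (by norm_num) x s
  have e : (2 : ℝ≥0∞).toReal = 2 := by norm_num
  rw [e] at h
  simpa [Real.rpow_two] using h

lemma summable_sq_norm (x : lp Z 2) : Summable fun k => ‖x k‖ ^ 2 :=
  summable_of_sum_le (fun _ => sq_nonneg _) (sum_sq_norm_le_norm_sq x)

/-- The l2-sum of reflexive spaces is reflexive. -/
theorem refl_lp (hZ : ∀ k, Refl (Z k)) : Refl (lp Z 2) := by
  intro Φ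
  -- coordinates of the candidate
  have hy : ∀ k, ∃ y : Z k, ∀ ξ : StrongDual ℝ (Z k),
      ξ y = Φ (preDual (lp.evalCLM ℝ Z 2 k) ξ) := by
    intro k
    obtain ⟨y, hy⟩ := hZ k (Φ.comp (preDual (lp.evalCLM ℝ Z 2 k)))
    refine ⟨y, fun ξ => ?_⟩
    have := congrArg (fun f => f ξ) hy
    simpa [NormedSpace.dual_def] using this
  choose y hy using hy
  -- square summability
  have hbound : ∀ s : Finset ℕ, ∑ k ∈ s, ‖y k‖ ^ 2 ≤ ‖Φ‖ ^ 2 := by
    intro s
    have hξ : ∀ k, ∃ ξ : StrongDual ℝ (Z k), ‖ξ‖ ≤ 1 ∧ ξ (y k) = ‖y k‖ := by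
      intro k
      obtain ⟨g, hg1, hg2⟩ := exists_dual_vector'' ℝ (y k)
      exact ⟨g, hg1, by simpa using hg2⟩
    choose ξ hξ1 hξ2 using hξ
    set T := ∑ k ∈ s, ‖y k‖ ^ 2 with hT
    have hT0 : 0 ≤ T := Finset.sum_nonneg fun _ _ => sq_nonneg _
    set ψ : StrongDual ℝ (lp Z 2) :=
      ∑ k ∈ s, ‖y k‖ • preDual (lp.evalCLM ℝ Z 2 k) (ξ k) with hψ
    have hΦψ : Φ ψ = T := by
      rw [hψ, map_sum, hT]
      refine Finset.sum_congr rfl fun k _ => ?_
      rw [map_smul, ← hy, hξ2, smul_eq_mul, sq]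
    have hψn : ‖ψ‖ ≤ Real.sqrt T := by
      refine ContinuousLinearMap.opNorm_le_bound _ (Real.sqrt_nonneg _) fun x => ?_
      have happly : ψ x = ∑ k ∈ s, ‖y k‖ * ξ k (x k) := by
        rw [hψ]
        simp [preDual_apply, evalCLM_apply']
      rw [happly, Real.norm_eq_abs]
      have h1 : |∑ k ∈ s, ‖y k‖ * ξ k (x k)| ≤ ∑ k ∈ s, ‖y k‖ * ‖x k‖ := by
        refine (Finset.abs_sum_le_sum_abs _ _).trans (Finset.sum_le_sum fun k _ => ?_)
        rw [abs_mul, abs_norm]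
        refine mul_le_mul_of_nonneg_left ?_ (norm_nonneg _)
        have := (ξ k).le_opNorm (x k)
        rw [Real.norm_eq_abs] at this
        calc |ξ k (x k)| ≤ ‖ξ k‖ * ‖x k‖ := this
          _ ≤ 1 * ‖x k‖ := mul_le_mul_of_nonneg_right (hξ1 k) (norm_nonneg _)
          _ = ‖x k‖ := one_mul _
      have h2 : (∑ k ∈ s, ‖y k‖ * ‖x k‖) ^ 2 ≤ T * ‖x‖ ^ 2 := by
        calc (∑ k ∈ s, ‖y k‖ * ‖x k‖) ^ 2
            ≤ (∑ k ∈ s, ‖y k‖ ^ 2) * ∑ k ∈ s, ‖x k‖ ^ 2 :=
              Finset.sum_mul_sq_le_sq_mul_sq s _ _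
          _ ≤ T * ‖x‖ ^ 2 := mul_le_mul_of_nonneg_left (sum_sq_norm_le_norm_sq x s) hT0
      have h3 : ∑ k ∈ s, ‖y k‖ * ‖x k‖ ≤ Real.sqrt T * ‖x‖ := by
        apply Real.le_sqrt_of_sq_le at h2
        rwa [Real.sqrt_mul hT0, Real.sqrt_sq (norm_nonneg _)] at h2
      exact h1.trans h3
    have hT1 : T ≤ ‖Φ‖ * Real.sqrt T := by
      calc T = Φ ψ := hΦψ.symm
        _ ≤ ‖Φ ψ‖ := le_abs_self _
        _ ≤ ‖Φ‖ * ‖ψ‖ := Φ.le_opNorm ψ
        _ ≤ ‖Φ‖ * Real.sqrt T := mul_le_mul_of_nonneg_left hψn (by positivity)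
    have hS := Real.sq_sqrt hT0
    have hS0 := Real.sqrt_nonneg T
    rcases hS0.eq_or_lt with h0 | h0
    · rw [← hS, ← h0]; simp; positivity
    · have h6 : Real.sqrt T * Real.sqrt T ≤ Real.sqrt T * ‖Φ‖ := by nlinarith
      have h7 : Real.sqrt T ≤ ‖Φ‖ := le_of_mul_le_mul_left h6 h0
      have h8 : T ≤ ‖Φ‖ ^ 2 := by
        rw [← hS]; exact pow_le_pow_left₀ hS0 h7 2
      exact h8
  have hmem : Memℓp y 2 := by
    have hpos : 0 < (2 : ℝ≥0∞).toReal := by norm_num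
    refine memℓp_gen ?_
    have e : (2 : ℝ≥0∞).toReal = 2 := by norm_num
    rw [e]
    have : Summable fun k => ‖y k‖ ^ 2 := summable_of_sum_le (fun _ => sq_nonneg _) hbound
    simpa [Real.rpow_two] using this
  refine ⟨⟨y, hmem⟩, ?_⟩
  ext φ
  rw [NormedSpace.dual_def]
  -- the finite truncations of φ
  set c : ℕ → ℝ := fun k => ‖φ.comp (lp.singleContinuousLinearMap ℝ Z 2 k)‖ with hc
  have hcs : Summable fun k => c k ^ 2 := summable_sq_opNorm_comp φ
  set S : Finset ℕ → StrongDual ℝ (lp Z 2) := fun s =>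
    ∑ k ∈ s, preDual (lp.evalCLM ℝ Z 2 k) (φ.comp (lp.singleContinuousLinearMap ℝ Z 2 k)) with hS
  have hSapply : ∀ s (x : lp Z 2), S s x = ∑ k ∈ s, φ (lp.single 2 k (x k)) := by
    intro s x
    simp [hS, preDual_apply, evalCLM_apply']
  -- the truncations converge in norm
  have hconv : Tendsto S atTop (𝓝 φ) := by
    rw [Metric.tendsto_atTop]
    intro ε hε
    have hε2 : 0 < (ε / 2) ^ 2 := by positivity
    -- choose a finite set carrying almost all the square mass of c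
    have hCauchy := (summable_iff_vanishing_norm.mp hcs) ((ε / 2) ^ 2) hε2
    obtain ⟨s₀, hs₀⟩ := hCauchy
    refine ⟨s₀, fun s hs => ?_⟩
    rw [dist_comm, dist_eq_norm]
    have hbd : ‖φ - S s‖ ≤ ε / 2 := by
      refine ContinuousLinearMap.opNorm_le_bound _ (by positivity) fun x => ?_
      rw [sub_apply, hSapply]
      -- pass to the limit over finite supersets of s
      have hlim : Tendsto (fun t : Finset ℕ => ∑ k ∈ t, φ (lp.single 2 k (x k))) atTop (𝓝 (φ x)) := by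
        have h1 := (lp.hasSum_single (p := 2) (by norm_num) x)
        have h2 := φ.continuous.tendsto x |>.comp h1
        refine h2.congr fun t => ?_
        simp
      have hlim2 : Tendsto (fun t : Finset ℕ =>
          ∑ k ∈ t, φ (lp.single 2 k (x k)) - ∑ k ∈ s, φ (lp.single 2 k (x k))) atTop
          (𝓝 (φ x - ∑ k ∈ s, φ (lp.single 2 k (x k)))) := hlim.sub_const _
      have hlim3 := hlim2.norm
      refine le_of_tendsto hlim3 ?_
      filter_upwards [eventually_ge_atTop s] with t ht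
      have hdiff : ∑ k ∈ t, φ (lp.single 2 k (x k)) - ∑ k ∈ s, φ (lp.single 2 k (x k))
          = ∑ k ∈ t \ s, φ (lp.single 2 k (x k)) := by
        rw [← Finset.sum_sdiff ht]; ring
      rw [hdiff, Real.norm_eq_abs]
      have hb1 : ∀ k, |φ (lp.single 2 k (x k))| ≤ c k * ‖x k‖ := by
        intro k
        have := (φ.comp (lp.singleContinuousLinearMap ℝ Z 2 k)).le_opNorm (x k)
        simpa using this
      have hb2 : |∑ k ∈ t \ s, φ (lp.single 2 k (x k))| ≤ ∑ k ∈ t \ s, c k * ‖x k‖ :=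
        (Finset.abs_sum_le_sum_abs _ _).trans (Finset.sum_le_sum fun k _ => hb1 k)
      have hb3 : (∑ k ∈ t \ s, c k * ‖x k‖) ^ 2 ≤ (ε / 2) ^ 2 * ‖x‖ ^ 2 := by
        calc (∑ k ∈ t \ s, c k * ‖x k‖) ^ 2
            ≤ (∑ k ∈ t \ s, c k ^ 2) * ∑ k ∈ t \ s, ‖x k‖ ^ 2 :=
              Finset.sum_mul_sq_le_sq_mul_sq _ _ _
          _ ≤ (ε / 2) ^ 2 * ‖x‖ ^ 2 := by
              apply mul_le_mul _ (sum_sq_norm_le_norm_sq x _)
                (Finset.sum_nonneg fun _ _ => sq_nonneg _) hε2.le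
              have hdisj : Disjoint (t \ s) s₀ :=
                Finset.disjoint_of_subset_right hs Finset.sdiff_disjoint
              have := hs₀ (t \ s) hdisj
              rw [Real.norm_eq_abs] at this
              exact (le_abs_self _).trans this.le
      have hb4 : ∑ k ∈ t \ s, c k * ‖x k‖ ≤ ε / 2 * ‖x‖ :=
        abs_le_of_sq_le_sq' (by rw [mul_pow]; exact hb3) (by positivity) |>.2
      exact hb2.trans hb4
    linarith
  -- Conclude by uniqueness of limits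
  have hL1 : Tendsto (fun s => Φ (S s)) atTop (𝓝 (Φ φ)) := Φ.continuous.tendsto φ |>.comp hconv
  have hSval : ∀ s, Φ (S s) = φ (∑ k ∈ s, lp.single 2 k (y k)) := by
    intro s
    rw [hS]
    simp only [map_sum]
    refine Finset.sum_congr rfl fun k _ => ?_
    rw [← hy]
    simp
  have hL2 : Tendsto (fun s => Φ (S s)) atTop (𝓝 (φ ⟨y, hmem⟩)) := by
    have h1 := (lp.hasSum_single (p := 2) (by norm_num) (⟨y, hmem⟩ : lp Z 2))
    have h2 := φ.continuous.tendsto _ |>.comp h1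
    refine h2.congr fun t => ?_
    rw [hSval]
    rfl
  exact tendsto_nhds_unique hL2 hL1

end lpsum

end Vale.Agent.Lib.P069
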