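import Mathlib
import Vale.Agent.Lib.P069.L2
import Vale.Agent.Lib.P069.Reflexive

open Filter Topology
open scoped ENNReal

namespace Vale.Agent.Lib.P069

/-- A real normed space with a distinguished functional dominated by the norm. -/
structure PB where
  E : Type
  [nacg : NormedAddCommGroup E]
  [nsp : NormedSpace ℝ E]
  L : StrongDual ℝ E
  L_le : ∀ y, |L y| ≤ ‖y‖

attribute [instance] PB.nacg PB.nsp

namespace PB

variable (Y : PB)

/-- The norm minus the functional. -/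
noncomputable def Dm (y : Y.E) : ℝ := ‖y‖ - Y.L y

/-- The norm plus the functional. -/
noncomputable def Dp (y : Y.E) : ℝ := ‖y‖ + Y.L y

variable {Y}

lemma Dm_nonneg (y : Y.E) : 0 ≤ Y.Dm y := by
  have := abs_le.mp (Y.L_le y)
  unfold Dm; linarith [this.2]

lemma Dp_nonneg (y : Y.E) : 0 ≤ Y.Dp y := by
  have := abs_le.mp (Y.L_le y)
  unfold Dp; linarith [this.1]

lemma Dm_le (y : Y.E) : Y.Dm y ≤ 2 * ‖y‖ := by
  have := abs_le.mp (Y.L_le y)
  unfold Dm; linarith [this.1]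

lemma Dp_le (y : Y.E) : Y.Dp y ≤ 2 * ‖y‖ := by
  have := abs_le.mp (Y.L_le y)
  unfold Dp; linarith [this.2]

lemma Dm_add_le (x y : Y.E) : Y.Dm (x + y) ≤ Y.Dm x + Y.Dm y := by
  unfold Dm; rw [map_add]; linarith [norm_add_le x y]

lemma Dp_add_le (x y : Y.E) : Y.Dp (x + y) ≤ Y.Dp x + Y.Dp y := by
  unfold Dp; rw [map_add]; linarith [norm_add_le x y]

lemma Dm_neg (y : Y.E) : Y.Dm (-y) = Y.Dp y := by
  unfold Dm Dp; rw [norm_neg, map_neg]; ring

lemma Dp_neg (y : Y.E) : Y.Dp (-y) = Y.Dm y := by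
  unfold Dm Dp; rw [norm_neg, map_neg]; ring

lemma Dm_smul {r : ℝ} (hr : 0 ≤ r) (y : Y.E) : Y.Dm (r • y) = r * Y.Dm y := by
  unfold Dm; rw [norm_smul, map_smul, Real.norm_eq_abs, abs_of_nonneg hr, smul_eq_mul]; ring

lemma Dp_smul {r : ℝ} (hr : 0 ≤ r) (y : Y.E) : Y.Dp (r • y) = r * Y.Dp y := by
  unfold Dp; rw [norm_smul, map_smul, Real.norm_eq_abs, abs_of_nonneg hr, smul_eq_mul]; ring

lemma Dm_zero : Y.Dm 0 = 0 := by simp [Dm]

lemma Dp_zero : Y.Dp 0 = 0 := by simp [Dp]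

lemma Dm_add_Dp (y : Y.E) : Y.Dm y + Y.Dp y = 2 * ‖y‖ := by
  unfold Dm Dp; ring

end PB

section step

variable (Z : ℕ → PB)

/-- The l2-sum of the underlying spaces. -/
abbrev L2Z : Type := lp (fun k => (Z k).E) 2

variable {Z}

lemma sqs_norm (w : L2Z Z) : SqS fun k => ‖w k‖ :=
  summable_sq_norm w

lemma sqs_Dm (w : L2Z Z) : SqS fun k => (Z k).Dm (w k) := by
  refine SqS.of_abs_le ((sqs_norm w).mul_left 2) fun k => ?_
  rw [abs_of_nonneg (PB.Dm_nonneg _), abs_of_nonneg (by positivity)]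
  exact PB.Dm_le _

lemma sqs_Dp (w : L2Z Z) : SqS fun k => (Z k).Dp (w k) := by
  refine SqS.of_abs_le ((sqs_norm w).mul_left 2) fun k => ?_
  rw [abs_of_nonneg (PB.Dp_nonneg _), abs_of_nonneg (by positivity)]
  exact PB.Dp_le _

lemma l2_norm_eq (w : L2Z Z) : l2 (fun k => ‖w k‖) = ‖w‖ := by
  have h := lp.norm_rpow_eq_tsum (E := fun k => (Z k).E) (p := 2) (by norm_num) w
  have e : (2 : ℝ≥0∞).toReal = 2 := by norm_num
  rw [e] at h
  simp only [Real.rpow_two] at h
  unfold l2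
  rw [← h, Real.sqrt_sq (norm_nonneg _)]

variable (Z)

/-- The norm formula of the tree step. -/
noncomputable def stepFun (a : ℝ) (w : L2Z Z) : ℝ :=
  max (a + l2 fun k => (Z k).Dm (w k)) (-a + l2 fun k => (Z k).Dp (w k))

variable {Z}

lemma stepFun_le_left (a : ℝ) (w : L2Z Z) :
    a + l2 (fun k => (Z k).Dm (w k)) ≤ stepFun Z a w := le_max_left _ _

lemma stepFun_le_right (a : ℝ) (w : L2Z Z) :
    -a + l2 (fun k => (Z k).Dp (w k)) ≤ stepFun Z a w := le_max_right _ _

lemma abs_le_stepFun (a : ℝ) (w : L2Z Z) : |a| ≤ stepFun Z a w := by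
  rcases abs_cases a with ⟨h, _⟩ | ⟨h, _⟩
  · rw [h]; linarith [stepFun_le_left a w, l2_nonneg fun k => (Z k).Dm (w k)]
  · rw [h]; linarith [stepFun_le_right a w, l2_nonneg fun k => (Z k).Dp (w k)]

lemma norm_le_stepFun (a : ℝ) (w : L2Z Z) : ‖w‖ ≤ stepFun Z a w := by
  have h1 := stepFun_le_left a w
  have h2 := stepFun_le_right a w
  have h3 : l2 (fun k => ‖w k‖) ≤
      (1 / 2 : ℝ) * (l2 (fun k => (Z k).Dm (w k)) + l2 (fun k => (Z k).Dp (w k))) := by
    have h4 : (fun k => ‖w k‖) = fun k => (1 / 2 : ℝ) * ((Z k).Dm (w k) + (Z k).Dp (w k)) := by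
      funext k
      rw [PB.Dm_add_Dp]; ring
    rw [h4, l2_mul_left, abs_of_pos (by norm_num)]
    exact mul_le_mul_of_nonneg_left (l2_add_le (sqs_Dm w) (sqs_Dp w)) (by norm_num)
  rw [l2_norm_eq] at h3
  linarith

lemma stepFun_le (a : ℝ) (w : L2Z Z) : stepFun Z a w ≤ |a| + 2 * ‖w‖ := by
  have hm : l2 (fun k => (Z k).Dm (w k)) ≤ 2 * ‖w‖ := by
    have : l2 (fun k => (Z k).Dm (w k)) ≤ l2 (fun k => 2 * ‖w k‖) :=
      l2_mono' ((sqs_norm w).mul_left 2) (fun k => PB.Dm_nonneg _) fun k => PB.Dm_le _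
    rwa [l2_mul_left, abs_of_pos (by norm_num), l2_norm_eq] at this
  have hp : l2 (fun k => (Z k).Dp (w k)) ≤ 2 * ‖w‖ := by
    have : l2 (fun k => (Z k).Dp (w k)) ≤ l2 (fun k => 2 * ‖w k‖) :=
      l2_mono' ((sqs_norm w).mul_left 2) (fun k => PB.Dp_nonneg _) fun k => PB.Dp_le _
    rwa [l2_mul_left, abs_of_pos (by norm_num), l2_norm_eq] at this
  refine max_le ?_ ?_
  · linarith [le_abs_self a]
  · linarith [neg_abs_le a]

lemma stepFun_add (a b : ℝ) (w v : L2Z Z) :
    stepFun Z (a + b) (w + v) ≤ stepFun Z a w + stepFun Z b v := by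
  refine max_le ?_ ?_
  · have h1 : l2 (fun k => (Z k).Dm ((w + v) k)) ≤ l2 fun k => (Z k).Dm (w k) + (Z k).Dm (v k) :=
      l2_mono' ((sqs_Dm w).add (sqs_Dm v)) (fun k => PB.Dm_nonneg _) fun k => PB.Dm_add_le _ _
    have h2 := l2_add_le (sqs_Dm w) (sqs_Dm v)
    linarith [stepFun_le_left a w, stepFun_le_left b v]
  · have h1 : l2 (fun k => (Z k).Dp ((w + v) k)) ≤ l2 fun k => (Z k).Dp (w k) + (Z k).Dp (v k) :=
      l2_mono' ((sqs_Dp w).add (sqs_Dp v)) (fun k => PB.Dp_nonneg _) fun k => PB.Dp_add_le _ _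
    have h2 := l2_add_le (sqs_Dp w) (sqs_Dp v)
    linarith [stepFun_le_right a w, stepFun_le_right b v]

lemma stepFun_neg (a : ℝ) (w : L2Z Z) : stepFun Z (-a) (-w) = stepFun Z a w := by
  unfold stepFun
  have h1 : (fun k => (Z k).Dm ((-w) k)) = fun k => (Z k).Dp (w k) := by
    funext k
    rw [lp.coeFn_neg, Pi.neg_apply, PB.Dm_neg]
  have h2 : (fun k => (Z k).Dp ((-w) k)) = fun k => (Z k).Dm (w k) := by
    funext k
    rw [lp.coeFn_neg, Pi.neg_apply, PB.Dp_neg]
  rw [h1, h2, neg_neg, max_comm]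

lemma stepFun_smul_of_nonneg {r : ℝ} (hr : 0 ≤ r) (a : ℝ) (w : L2Z Z) :
    stepFun Z (r * a) (r • w) = r * stepFun Z a w := by
  unfold stepFun
  have h1 : (fun k => (Z k).Dm ((r • w) k)) = fun k => r * (Z k).Dm (w k) := by
    funext k
    rw [lp.coeFn_smul, Pi.smul_apply, PB.Dm_smul hr]
  have h2 : (fun k => (Z k).Dp ((r • w) k)) = fun k => r * (Z k).Dp (w k) := by
    funext k
    rw [lp.coeFn_smul, Pi.smul_apply, PB.Dp_smul hr]
  rw [h1, h2, l2_mul_left, l2_mul_left, abs_of_nonneg hr, mul_max_of_nonneg _ _ hr]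
  congr 1 <;> ring

lemma stepFun_zero : stepFun Z 0 (0 : L2Z Z) = 0 := by
  have h1 : (fun k => (Z k).Dm ((0 : L2Z Z) k)) = fun _ => 0 := by
    funext k
    rw [lp.coeFn_zero, Pi.zero_apply, PB.Dm_zero]
  have h2 : (fun k => (Z k).Dp ((0 : L2Z Z) k)) = fun _ => 0 := by
    funext k
    rw [lp.coeFn_zero, Pi.zero_apply, PB.Dp_zero]
  unfold stepFun
  rw [h1, h2]
  simp [l2]

variable (Z)

/-- The carrier of the tree step: a real number and an l2-sequence, with its new norm. -/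
def StepE : Type := ℝ × L2Z Z

noncomputable instance : AddCommGroup (StepE Z) := inferInstanceAs (AddCommGroup (ℝ × L2Z Z))

noncomputable instance : Module ℝ (StepE Z) := inferInstanceAs (Module ℝ (ℝ × L2Z Z))

variable {Z}

/-- The real coordinate. -/
def StepE.a (x : StepE Z) : ℝ := Prod.fst x

/-- The sequence coordinate. -/
def StepE.w (x : StepE Z) : L2Z Z := Prod.snd x

/-- Constructor. -/
def StepE.mk (a : ℝ) (w : L2Z Z) : StepE Z := (a, w)

@[simp] lemma StepE.mk_a (a : ℝ) (w : L2Z Z) : (StepE.mk a w).a = a := rfl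
@[simp] lemma StepE.mk_w (a : ℝ) (w : L2Z Z) : (StepE.mk a w).w = w := rfl
@[simp] lemma StepE.add_a (x y : StepE Z) : (x + y).a = x.a + y.a := rfl
@[simp] lemma StepE.add_w (x y : StepE Z) : (x + y).w = x.w + y.w := rfl
@[simp] lemma StepE.sub_a (x y : StepE Z) : (x - y).a = x.a - y.a := rfl
@[simp] lemma StepE.sub_w (x y : StepE Z) : (x - y).w = x.w - y.w := rfl
@[simp] lemma StepE.neg_a (x : StepE Z) : (-x).a = -x.a := rfl
@[simp] lemma StepE.neg_w (x : StepE Z) : (-x).w = -x.w := rfl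
@[simp] lemma StepE.zero_a : (0 : StepE Z).a = 0 := rfl
@[simp] lemma StepE.zero_w : (0 : StepE Z).w = 0 := rfl
@[simp] lemma StepE.smul_a (r : ℝ) (x : StepE Z) : (r • x).a = r * x.a := rfl
@[simp] lemma StepE.smul_w (r : ℝ) (x : StepE Z) : (r • x).w = r • x.w := rfl

lemma StepE.ext {x y : StepE Z} (h1 : x.a = y.a) (h2 : x.w = y.w) : x = y :=
  Prod.ext h1 h2

variable (Z)

/-- The norm of the tree step as a group norm. -/
noncomputable def stepNorm : AddGroupNorm (StepE Z) where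
  toFun x := stepFun Z x.a x.w
  map_zero' := stepFun_zero
  add_le' x y := stepFun_add _ _ _ _
  neg' x := stepFun_neg _ _
  eq_zero_of_map_eq_zero' x hx := by
    have h1 : |x.a| ≤ 0 := by
      have := abs_le_stepFun x.a x.w
      rwa [hx] at this
    have h2 : ‖x.w‖ ≤ 0 := by
      have := norm_le_stepFun x.a x.w
      rwa [hx] at this
    apply StepE.ext
    · exact abs_nonpos_iff.mp h1
    · exact norm_le_zero_iff.mp h2

noncomputable instance : NormedAddCommGroup (StepE Z) := (stepNorm Z).toNormedAddCommGroup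

variable {Z}

lemma StepE.norm_def (x : StepE Z) : ‖x‖ = stepFun Z x.a x.w := rfl

lemma StepE.norm_smul_le' (r : ℝ) (x : StepE Z) : ‖r • x‖ = |r| * ‖x‖ := by
  rcases le_total 0 r with hr | hr
  · rw [abs_of_nonneg hr, StepE.norm_def, StepE.norm_def, StepE.smul_a, StepE.smul_w,
      stepFun_smul_of_nonneg hr]
  · have h1 : r • x = -((-r) • x) := by simp
    rw [h1, norm_neg, abs_of_nonpos hr, StepE.norm_def, StepE.norm_def, StepE.smul_a, StepE.smul_w,
      stepFun_smul_of_nonneg (by linarith)]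

noncomputable instance : NormedSpace ℝ (StepE Z) where
  norm_smul_le r x := by
    rw [StepE.norm_smul_le', Real.norm_eq_abs]

lemma StepE.abs_a_le (x : StepE Z) : |x.a| ≤ ‖x‖ := abs_le_stepFun _ _

lemma StepE.norm_w_le (x : StepE Z) : ‖x.w‖ ≤ ‖x‖ := norm_le_stepFun _ _

lemma StepE.norm_le (x : StepE Z) : ‖x‖ ≤ |x.a| + 2 * ‖x.w‖ := stepFun_le _ _

variable (Z)

/-- The real coordinate as a functional. -/
noncomputable def aL : StrongDual ℝ (StepE Z) :=
  LinearMap.mkContinuous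
    { toFun := StepE.a
      map_add' := fun _ _ => rfl
      map_smul' := fun _ _ => rfl } 1
    fun x => by
      rw [one_mul]
      exact StepE.abs_a_le x

/-- The tree step, as a pointed normed space. -/
noncomputable def step : PB where
  E := StepE Z
  L := aL Z
  L_le := fun x => StepE.abs_a_le x

variable {Z}

@[simp] lemma aL_apply (x : StepE Z) : aL Z x = x.a := rfl

/-- The linear equivalence with the product with the usual structure. -/
noncomputable def stepLinearEquiv : StepE Z ≃ₗ[ℝ] ℝ × L2Z Z where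
  toFun x := (x.a, x.w)
  invFun p := StepE.mk p.1 p.2
  map_add' _ _ := rfl
  map_smul' _ _ := rfl
  left_inv _ := rfl
  right_inv _ := rfl

/-- The continuous linear equivalence with the product with the usual structure. -/
noncomputable def stepEquiv : StepE Z ≃L[ℝ] ℝ × L2Z Z :=
  LinearEquiv.toContinuousLinearEquivOfBounds stepLinearEquiv 1 3
    (fun x => by
      rw [one_mul, Prod.norm_def]
      exact max_le (StepE.abs_a_le x) (StepE.norm_w_le x))
    (fun p => by
      rw [Prod.norm_def]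
      have h1 : |p.1| ≤ max ‖p.1‖ ‖p.2‖ := le_max_left ‖p.1‖ ‖p.2‖
      have h2 := le_max_right ‖p.1‖ ‖p.2‖
      have h3 := StepE.norm_le (stepLinearEquiv.symm p)
      have h4 : (stepLinearEquiv.symm p).a = p.1 := rfl
      have h5 : (stepLinearEquiv.symm p).w = p.2 := rfl
      rw [h4, h5] at h3
      linarith)

lemma completeSpace_step (h : ∀ k, CompleteSpace (Z k).E) : CompleteSpace (StepE Z) := by
  have : CompleteSpace (ℝ × L2Z Z) := inferInstance
  exact (completeSpace_congr (e := (stepEquiv (Z := Z)).toEquiv)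
    (stepEquiv (Z := Z)).isUniformEmbedding).mpr this

lemma refl_step (h : ∀ k, Refl (Z k).E) : Refl (StepE Z) :=
  refl_of_equiv (stepEquiv (Z := Z)).symm (refl_prod refl_real (refl_lp h))

end step

end Vale.Agent.Lib.P069
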