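import Mathlib
import Vale.Agent.Lib.P069.Step

open Filter Topology
open scoped ENNReal

namespace Vale.Agent.Lib.P069

namespace PB

variable {Y : PB}

/-- The symmetric gain of `z` at `y`. -/
noncomputable def gain (y z : Y.E) : ℝ := (‖y + z‖ + ‖y - z‖) / 2 - ‖y‖

/-- The potential controlling the gain. -/
noncomputable def pot (y z : Y.E) : ℝ :=
  gain y z * (2 * Y.Dm y + gain y z) * (2 * Y.Dp y + gain y z)

lemma gain_nonneg (y z : Y.E) : 0 ≤ gain y z := by
  have h : ‖y + y‖ ≤ ‖y + z‖ + ‖y - z‖ := by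
    have : y + y = (y + z) + (y - z) := by abel
    rw [this]
    exact norm_add_le _ _
  have h2 : ‖y + y‖ = 2 * ‖y‖ := by
    rw [← two_smul ℝ y, norm_smul]; simp
  unfold gain
  linarith

lemma gain_le (y z : Y.E) : gain y z ≤ ‖z‖ := by
  have h1 := norm_add_le y z
  have h2 := norm_sub_le y z
  unfold gain
  linarith

lemma gain_zero (z : Y.E) : gain (0 : Y.E) z = ‖z‖ := by
  unfold gain
  simp

lemma pot_zero (z : Y.E) : pot (0 : Y.E) z = ‖z‖ ^ 3 := by
  unfold pot
  rw [gain_zero, Dm_zero, Dp_zero]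
  ring

/-- The gain in terms of the two sides. -/
lemma Dm_add_gain (y z : Y.E) :
    Y.Dm y + gain y z = (1 / 2 : ℝ) * (Y.Dm (y + z) + Y.Dm (y - z)) := by
  unfold gain Dm
  rw [map_add, map_sub]
  ring

lemma Dp_add_gain (y z : Y.E) :
    Y.Dp y + gain y z = (1 / 2 : ℝ) * (Y.Dp (y + z) + Y.Dp (y - z)) := by
  unfold gain Dp
  rw [map_add, map_sub]
  ring

end PB

open PB

/-- The far-out property which will be preserved by the tree step. -/
def Far (Y : PB) : Prop :=
  ∀ (y : Y.E) (η : ℝ), 0 < η → ∃ y' : Y.E, ‖y - y'‖ ≤ η ∧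
    ∃ (S : Finset (StrongDual ℝ Y.E)) (τ : Y.E → ℝ),
      ∀ z : Y.E, (∀ φ ∈ S, φ z = 0) →
        0 ≤ τ z ∧ τ z ≤ ‖z‖ ∧ ‖z‖ + |Y.L z| ≤ 2 * τ z ∧ τ z ^ 3 ≤ pot y' z

section step

variable {Z : ℕ → PB}

lemma sum_single_apply (s : Finset ℕ) (f : ∀ k, (Z k).E) (k : ℕ) :
    (∑ i ∈ s, lp.single 2 i (f i) : L2Z Z) k = if k ∈ s then f k else 0 := by
  rw [lp.coeFn_sum, Finset.sum_apply]
  split_ifs with h
  · rw [Finset.sum_eq_single k]
    · exact lp.single_apply_self _ _ _
    · intro j _ hj
      exact lp.single_apply_ne _ _ _ (Ne.symm hj)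
    · intro h'
      exact absurd h h'
  · apply Finset.sum_eq_zero
    intro j hj
    have : k ≠ j := fun e => h (e ▸ hj)
    exact lp.single_apply_ne _ _ _ this

/-- The sequence coordinate, as a continuous linear map. -/
noncomputable def wCLM : StepE Z →L[ℝ] L2Z Z :=
  LinearMap.mkContinuous
    { toFun := StepE.w
      map_add' := fun _ _ => rfl
      map_smul' := fun _ _ => rfl } 1
    fun x => by
      rw [one_mul]
      exact StepE.norm_w_le x

@[simp] lemma wCLM_apply (x : StepE Z) : wCLM x = x.w := rfl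

/-- The coordinate projection of the tree step. -/
noncomputable def projCLM (k : ℕ) : StepE Z →L[ℝ] (Z k).E :=
  (lp.evalCLM ℝ (fun k => (Z k).E) 2 k).comp wCLM

lemma projCLM_apply (k : ℕ) (x : StepE Z) : projCLM k x = x.w k := rfl

/-- The core step: the potential inequality for a vector with finitely many active coordinates. -/
theorem pot_step {a : ℝ} {u : L2Z Z} {z : StepE Z} (hz : z.a = 0) {T : ℕ → ℝ}
    (hT0 : ∀ k, 0 ≤ T k) (hT1 : ∀ k, T k ≤ ‖z.w k‖)
    (hT3 : ∀ k, T k ^ 3 ≤ pot (u k) (z.w k)) :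
    l2 T ^ 3 ≤ pot (Y := step Z) (StepE.mk a u) z := by
  set A : ℕ → ℝ := fun k => (Z k).Dm (u k) with hA
  set B : ℕ → ℝ := fun k => (Z k).Dp (u k) with hB
  set G : ℕ → ℝ := fun k => gain (u k) (z.w k) with hG
  have sA : SqS A := sqs_Dm u
  have sB : SqS B := sqs_Dp u
  have sG : SqS G := by
    refine SqS.of_abs_le (sqs_norm z.w) fun k => ?_
    rw [abs_of_nonneg (gain_nonneg _ _), abs_of_nonneg (norm_nonneg _)]
    exact gain_le _ _
  have sT : SqS T := by
    refine SqS.of_abs_le (sqs_norm z.w) fun k => ?_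
    rw [abs_of_nonneg (hT0 k), abs_of_nonneg (norm_nonneg _)]
    exact hT1 k
  set y : StepE Z := StepE.mk a u with hy
  have hnorm : ‖y‖ = max (a + l2 A) (-a + l2 B) := rfl
  have hg0 : 0 ≤ gain (Y := step Z) y z := gain_nonneg (Y := step Z) y z
  have hexp : ‖y‖ + gain (Y := step Z) y z = (‖y + z‖ + ‖y - z‖) / 2 := by
    unfold gain
    show ‖y‖ + ((‖y + z‖ + ‖y - z‖) / 2 - ‖y‖) = _
    ring
  have hadd : (y + z).a = a := by simp [hy, hz]
  have hsub : (y - z).a = a := by simp [hy, hz]
  have h1 : a + l2 (fun k => A k + G k) ≤ ‖y‖ + gain (Y := step Z) y z := by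
    rw [hexp]
    have e1 : (fun k => A k + G k)
        = fun k => (1 / 2 : ℝ) * ((Z k).Dm ((y + z).w k) + (Z k).Dm ((y - z).w k)) := by
      funext k
      have := Dm_add_gain (u k) (z.w k)
      simp only [hA, hG]
      rw [this]
      rfl
    rw [e1, l2_mul_left, abs_of_pos (by norm_num)]
    have h2 := l2_add_le (sqs_Dm (y + z).w) (sqs_Dm (y - z).w)
    have h3 : a + l2 (fun k => (Z k).Dm ((y + z).w k)) ≤ ‖y + z‖ := by
      have e : ‖y + z‖ = stepFun Z (y + z).a (y + z).w := rfl
      rw [e, hadd]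
      exact stepFun_le_left a (y + z).w
    have h4 : a + l2 (fun k => (Z k).Dm ((y - z).w k)) ≤ ‖y - z‖ := by
      have e : ‖y - z‖ = stepFun Z (y - z).a (y - z).w := rfl
      rw [e, hsub]
      exact stepFun_le_left a (y - z).w
    linarith
  have h2 : -a + l2 (fun k => B k + G k) ≤ ‖y‖ + gain (Y := step Z) y z := by
    rw [hexp]
    have e1 : (fun k => B k + G k)
        = fun k => (1 / 2 : ℝ) * ((Z k).Dp ((y + z).w k) + (Z k).Dp ((y - z).w k)) := by
      funext k
      have := Dp_add_gain (u k) (z.w k)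
      simp only [hB, hG]
      rw [this]
      rfl
    rw [e1, l2_mul_left, abs_of_pos (by norm_num)]
    have h2 := l2_add_le (sqs_Dp (y + z).w) (sqs_Dp (y - z).w)
    have h3 : -a + l2 (fun k => (Z k).Dp ((y + z).w k)) ≤ ‖y + z‖ := by
      have e : ‖y + z‖ = stepFun Z (y + z).a (y + z).w := rfl
      rw [e, hadd]
      exact stepFun_le_right a (y + z).w
    have h4 : -a + l2 (fun k => (Z k).Dp ((y - z).w k)) ≤ ‖y - z‖ := by
      have e : ‖y - z‖ = stepFun Z (y - z).a (y - z).w := rfl
      rw [e, hsub]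
      exact stepFun_le_right a (y - z).w
    linarith
  have hcore := core (A := A) (B := B) (G := G) (τ := T)
    (fun k => Dm_nonneg _) (fun k => Dp_nonneg _) (fun k => gain_nonneg _ _) hT0 sA sB sG sT
    (fun k => hT3 k) hg0 hnorm h1 h2
  exact hcore

/-- The far-out property passes to the tree step. -/
theorem far_step (h : ∀ k, Far (Z k)) : Far (step Z) := by
  classical
  intro (y : StepE Z) η hη
  -- a finite set carrying most of the sequence
  obtain ⟨s, hs⟩ : ∃ s : Finset ℕ, ‖y.w - ∑ k ∈ s, lp.single 2 k (y.w k)‖ < η / 8 := by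
    have h1 := lp.hasSum_single (E := fun k => (Z k).E) (p := 2) (by norm_num) y.w
    have h2 := (Metric.tendsto_atTop.mp h1) (η / 8) (by positivity)
    obtain ⟨s, hs⟩ := h2
    refine ⟨s, ?_⟩
    have := hs s le_rfl
    rw [dist_comm, dist_eq_norm] at this
    exact this
  have hcard : (0 : ℝ) < (s.card : ℝ) + 1 := by positivity
  set η' : ℝ := η / (8 * ((s.card : ℝ) + 1)) with hη'
  have hη'pos : 0 < η' := by positivity
  choose y' hy' S τ hτ using fun k => h k (y.w k) η' hη'pos
  set u : L2Z Z := ∑ k ∈ s, lp.single 2 k (y' k) with hu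
  have hu1 : ∀ k, k ∈ s → u k = y' k := fun k hk => by
    rw [hu, sum_single_apply, if_pos hk]
  have hu2 : ∀ k, k ∉ s → u k = 0 := fun k hk => by
    rw [hu, sum_single_apply, if_neg hk]
  -- the approximation
  have hclose : ‖y.w - u‖ ≤ η / 4 := by
    have e : y.w - u = (y.w - ∑ k ∈ s, lp.single 2 k (y.w k))
        + ∑ k ∈ s, lp.single 2 k (y.w k - y' k) := by
      rw [hu]
      have : ∑ k ∈ s, lp.single 2 k (y.w k - y' k)
          = ∑ k ∈ s, lp.single 2 k (y.w k) - ∑ k ∈ s, lp.single (E := fun k => (Z k).E) 2 k (y' k) := by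
        rw [← Finset.sum_sub_distrib]
        exact Finset.sum_congr rfl fun k _ => lp.single_sub _ _ _ _
      rw [this]
      abel
    have h1 : ‖∑ k ∈ s, lp.single (E := fun k => (Z k).E) 2 k (y.w k - y' k)‖ ≤ η / 8 := by
      calc _ ≤ ∑ k ∈ s, ‖lp.single (E := fun k => (Z k).E) 2 k (y.w k - y' k)‖ := norm_sum_le _ _
        _ = ∑ k ∈ s, ‖y.w k - y' k‖ := by
            refine Finset.sum_congr rfl fun k _ => ?_
            exact lp.norm_single (by norm_num) _ _
        _ ≤ ∑ k ∈ s, η' := Finset.sum_le_sum fun k _ => hy' k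
        _ = (s.card : ℝ) * η' := by simp
        _ ≤ η / 8 := by
            rw [hη']
            have h5 : (s.card : ℝ) * (η / (8 * ((s.card : ℝ) + 1)))
                = (η / 8) * ((s.card : ℝ) / ((s.card : ℝ) + 1)) := by
              field_simp
            rw [h5]
            have h6 : (s.card : ℝ) / ((s.card : ℝ) + 1) ≤ 1 := by
              rw [div_le_one hcard]; linarith
            have h7 : 0 < η / 8 := by positivity
            nlinarith
    rw [e]
    calc _ ≤ _ := norm_add_le _ _
      _ ≤ η / 4 := by linarith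
  refine ⟨StepE.mk y.a u, ?_, ?_⟩
  · -- norm estimate
    have h1 := StepE.norm_le (y - StepE.mk y.a u)
    have h2 : (y - StepE.mk y.a u).a = 0 := by simp
    have h3 : (y - StepE.mk y.a u).w = y.w - u := by simp
    rw [h2, h3, abs_zero] at h1
    show ‖y - StepE.mk y.a u‖ ≤ η
    linarith
  · -- the finite family of functionals and the function
    refine ⟨insert (aL Z) (s.biUnion fun k => (S k).image fun φ => φ.comp (projCLM k)),
      fun z => l2 fun k => if k ∈ s then τ k (z.w k) else ‖z.w k‖, ?_⟩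
    intro (z : StepE Z) hz
    have hza : z.a = 0 := by
      exact hz (aL Z) (Finset.mem_insert_self _ _)
    have hzS : ∀ k ∈ s, ∀ φ ∈ S k, φ (z.w k) = 0 := by
      intro k hk φ hφ
      have hmem : φ.comp (projCLM k) ∈
          insert (aL Z) (s.biUnion fun k => (S k).image fun φ => φ.comp (projCLM k)) := by
        apply Finset.mem_insert_of_mem
        rw [Finset.mem_biUnion]
        exact ⟨k, hk, Finset.mem_image_of_mem _ hφ⟩
      exact hz _ hmem
    set T : ℕ → ℝ := fun k => if k ∈ s then τ k (z.w k) else ‖z.w k‖ with hT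
    have hT0 : ∀ k, 0 ≤ T k := by
      intro k
      simp only [hT]
      split_ifs with hk
      · exact (hτ k _ (hzS k hk)).1
      · exact norm_nonneg _
    have hT1 : ∀ k, T k ≤ ‖z.w k‖ := by
      intro k
      simp only [hT]
      split_ifs with hk
      · exact (hτ k _ (hzS k hk)).2.1
      · exact le_rfl
    have hT2 : ∀ k, ‖z.w k‖ + |(Z k).L (z.w k)| ≤ 2 * T k := by
      intro k
      simp only [hT]
      split_ifs with hk
      · exact (hτ k _ (hzS k hk)).2.2.1
      · have := (Z k).L_le (z.w k)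
        linarith
    have hT3 : ∀ k, T k ^ 3 ≤ pot (u k) (z.w k) := by
      intro k
      simp only [hT]
      split_ifs with hk
      · rw [hu1 k hk]
        exact (hτ k _ (hzS k hk)).2.2.2
      · rw [hu2 k hk, pot_zero]
    have sT : SqS T := by
      refine SqS.of_abs_le (sqs_norm z.w) fun k => ?_
      rw [abs_of_nonneg (hT0 k), abs_of_nonneg (norm_nonneg _)]
      exact hT1 k
    refine ⟨l2_nonneg _, ?_, ?_, pot_step hza hT0 hT1 hT3⟩
    · -- the upper bound
      have h1 : l2 T ≤ l2 (fun k => ‖z.w k‖) := l2_mono' (sqs_norm z.w) hT0 hT1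
      rw [l2_norm_eq] at h1
      exact h1.trans (StepE.norm_w_le z)
    · -- the lower bound
      have hL : (step Z).L z = z.a := rfl
      rw [hL, hza, abs_zero, add_zero]
      have hn : ‖z‖ = stepFun Z z.a z.w := rfl
      show ‖z‖ ≤ 2 * l2 T
      rw [hn, hza]
      have hmono : ∀ k, |(Z k).L (z.w k)| ≤ |(Z k).L (z.w k)| := fun _ => le_rfl
      have e2 : 2 * l2 T = l2 (fun k => 2 * T k) := by
        rw [l2_mul_left, abs_of_pos (by norm_num)]
      refine max_le ?_ ?_
      · rw [zero_add, e2]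
        refine l2_mono' (sT.mul_left 2) (fun k => Dm_nonneg _) fun k => ?_
        have := hT2 k
        have h3 := neg_abs_le ((Z k).L (z.w k))
        unfold PB.Dm
        linarith
      · rw [neg_zero, zero_add, e2]
        refine l2_mono' (sT.mul_left 2) (fun k => Dp_nonneg _) fun k => ?_
        have := hT2 k
        have h3 := le_abs_self ((Z k).L (z.w k))
        unfold PB.Dp
        linarith

end step

end Vale.Agent.Lib.P069
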