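import Mathlib
import Vale.Agent.Lib.P069.Defs
import Vale.Agent.Lib.P069.Far

open Filter Topology
open scoped ENNReal

namespace Vale.Agent.Lib.P069

section cofinite

variable {X : Type*} [NormedAddCommGroup X] [NormedSpace ℝ X]

/-- The common kernel of finitely many functionals is a closed subspace of finite codimension. -/
lemma exists_mem_cof_ker (S : Finset (StrongDual ℝ X)) :
    ∃ F ∈ cof X, ∀ z ∈ F, ∀ φ ∈ S, φ z = 0 := by
  classical
  let T : X →L[ℝ] (S → ℝ) := ContinuousLinearMap.pi fun φ : S => φ.1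
  refine ⟨LinearMap.ker (T : X →ₗ[ℝ] (S → ℝ)), ⟨?_, ?_⟩, ?_⟩
  · exact T.isClosed_ker
  · exact Module.Finite.equiv ((T : X →ₗ[ℝ] (S → ℝ)).quotKerEquivRange.symm)
  · intro z hz φ hφ
    have h1 : T z = 0 := hz
    have h2 := congrFun h1 ⟨φ, hφ⟩
    exact h2

/-- A weakly null sequence comes arbitrarily close to any closed subspace of finite codimension. -/
lemma exists_close {F : Submodule ℝ X} (hF : F ∈ cof X) {u : ℕ → X}
    (hu : ∀ φ : StrongDual ℝ X, Tendsto (fun k => φ (u k)) atTop (𝓝 0)) {η : ℝ} (hη : 0 < η) :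
    ∃ k, ∃ f ∈ F, ‖u k - f‖ < η := by
  obtain ⟨hcl, hfin⟩ := hF
  have : IsClosed (F : Set X) := hcl
  have : FiniteDimensional ℝ (X ⧸ F) := hfin
  let q : X →L[ℝ] X ⧸ F := LinearMap.mkContinuous F.mkQ 1 fun x => by
    rw [one_mul]
    exact Submodule.Quotient.norm_mk_le _ _
  have hq : ∀ x, q x = Submodule.Quotient.mk x := fun _ => rfl
  let b := Module.finBasis ℝ (X ⧸ F)
  have hlim : Tendsto (fun k => q (u k)) atTop (𝓝 0) := by
    have h1 : ∀ i, Tendsto (fun k => (b.coord i) (q (u k))) atTop (𝓝 0) := by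
      intro i
      let ci : StrongDual ℝ (X ⧸ F) := LinearMap.toContinuousLinearMap (b.coord i)
      exact hu (ci.comp q)
    have h2 : ∀ k, q (u k) = ∑ i, (b.coord i) (q (u k)) • b i := by
      intro k
      conv_lhs => rw [← b.sum_repr (q (u k))]
      rfl
    have h3 : Tendsto (fun k => ∑ i, (b.coord i) (q (u k)) • b i) atTop
        (𝓝 (∑ i, (0 : ℝ) • b i)) :=
      tendsto_finsetSum _ fun i _ => (h1 i).smul_const _
    simp only [zero_smul, Finset.sum_const_zero] at h3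
    exact h3.congr fun k => (h2 k).symm
  have hlim2 := hlim.norm
  rw [norm_zero] at hlim2
  have hev := (tendsto_order.1 hlim2).2 (η / 2) (by positivity)
  obtain ⟨k, hk⟩ := hev.exists
  obtain ⟨m, hm1, hm2⟩ := Submodule.Quotient.norm_mk_lt (S := F) (q (u k)) (ε := η / 2) (by positivity)
  refine ⟨k, u k - m, ?_, ?_⟩
  · have h4 : (Submodule.Quotient.mk (u k) : X ⧸ F) = Submodule.Quotient.mk m := by
      rw [hm1]
      rfl
    exact (Submodule.Quotient.eq F).mp h4
  · simp only [sub_sub_cancel]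
    linarith

end cofinite

section amuc

open PB

/-- The far-out property gives a uniform asymptotic midpoint convexity estimate. -/
theorem amuc_estimate {Y : PB} (h : Far Y) (t : ℝ) (ht : 0 < t) :
    ∃ b > 0, ∀ x : Y.E, ‖x‖ = 1 → ∃ F ∈ cof Y.E, ∀ y ∈ F, ‖y‖ = 1 →
      b ≤ max ‖x + t • y‖ ‖x - t • y‖ - 1 := by
  set b₀ : ℝ := min 1 (t ^ 3 / 648) with hb₀
  have hb₀pos : 0 < b₀ := lt_min one_pos (by positivity)
  have hb₁ : b₀ ≤ 1 := min_le_left _ _
  have hb₂ : b₀ ≤ t ^ 3 / 648 := min_le_right _ _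
  refine ⟨b₀ / 2, by positivity, fun x hx => ?_⟩
  obtain ⟨x', hx', S, τ, hτ⟩ := h x (b₀ / 4) (by positivity)
  obtain ⟨F, hF, hFS⟩ := exists_mem_cof_ker S
  refine ⟨F, hF, fun y hyF hy => ?_⟩
  set z : Y.E := t • y with hz
  have hzS : ∀ φ ∈ S, φ z = 0 := fun φ hφ => by
    rw [hz, map_smul, hFS y hyF φ hφ, smul_zero]
  obtain ⟨h0, _, h2, h3⟩ := hτ z hzS
  have hnz : ‖z‖ = t := by
    rw [hz, norm_smul, hy, mul_one, Real.norm_eq_abs, abs_of_pos ht]
  have hτt : t / 2 ≤ τ z := by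
    have := abs_nonneg (Y.L z)
    linarith
  have hcube : t ^ 3 / 8 ≤ τ z ^ 3 := by
    have := pow_le_pow_left₀ (by positivity) hτt 3
    calc t ^ 3 / 8 = (t / 2) ^ 3 := by ring
      _ ≤ _ := this
  have hx'norm1 : ‖x'‖ ≤ 1 + b₀ / 4 := by
    have := norm_le_norm_add_norm_sub' x' x
    rw [norm_sub_rev] at this
    linarith
  have hx'norm2 : 1 - b₀ / 4 ≤ ‖x'‖ := by
    have := norm_le_norm_add_norm_sub' x x'
    linarith
  have hDm : Y.Dm x' ≤ 4 := by
    have := Dm_le x'
    linarith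
  have hDp : Y.Dp x' ≤ 4 := by
    have := Dp_le x'
    linarith
  set G := gain x' z with hG
  have hG0 : 0 ≤ G := gain_nonneg _ _
  have hGb : b₀ ≤ G := by
    by_contra hlt
    push Not at hlt
    have hG1 : G ≤ 1 := by linarith
    have h4 : pot x' z ≤ G * 81 := by
      have hm0 := Dm_nonneg x'
      have hp0 := Dp_nonneg x'
      have h5 : (2 * Y.Dm x' + G) * (2 * Y.Dp x' + G) ≤ 9 * 9 := by
        apply mul_le_mul <;> linarith
      calc pot x' z = G * ((2 * Y.Dm x' + G) * (2 * Y.Dp x' + G)) := by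
            unfold pot; rw [← hG]; ring
        _ ≤ G * (9 * 9) := mul_le_mul_of_nonneg_left h5 hG0
        _ = G * 81 := by norm_num
    have h6 : t ^ 3 / 8 ≤ G * 81 := hcube.trans (h3.trans h4)
    have h7 : G * 81 < b₀ * 81 := by nlinarith
    have h8 : b₀ * 81 ≤ t ^ 3 / 8 := by
      have : b₀ * 81 ≤ t ^ 3 / 648 * 81 := by nlinarith
      calc b₀ * 81 ≤ t ^ 3 / 648 * 81 := this
        _ = t ^ 3 / 8 := by ring
    linarith
  have hmid : ‖x'‖ + G = (‖x' + z‖ + ‖x' - z‖) / 2 := by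
    rw [hG]; unfold gain; ring
  have h9 : ‖x' + z‖ ≤ ‖x + z‖ + b₀ / 4 := by
    have e : x' + z = (x + z) + (x' - x) := by abel
    rw [e]
    refine (norm_add_le _ _).trans ?_
    rw [norm_sub_rev x' x]
    linarith
  have h10 : ‖x' - z‖ ≤ ‖x - z‖ + b₀ / 4 := by
    have e : x' - z = (x - z) + (x' - x) := by abel
    rw [e]
    refine (norm_add_le _ _).trans ?_
    rw [norm_sub_rev x' x]
    linarith
  have h11 := le_max_left ‖x + z‖ ‖x - z‖
  have h12 := le_max_right ‖x + z‖ ‖x - z‖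
  linarith

/-- The far-out property gives an asymptotically midpoint uniformly convex norm. -/
theorem isAMUC_of_far {Y : PB} (h : Far Y) : IsAMUC (fun x : Y.E => ‖x‖) := by
  intro t ht
  obtain ⟨b, hb, hb2⟩ := amuc_estimate h t ht
  have hb' : (0 : EReal) < (b : EReal) := by exact_mod_cast hb
  refine lt_of_lt_of_le hb' ?_
  unfold amucModulus
  refine le_iInf₂ fun x hx => ?_
  obtain ⟨F, hF, hF2⟩ := hb2 x hx
  refine le_iSup₂_of_le F hF ?_
  refine le_iInf₂ fun y hy => ?_
  exact_mod_cast hF2 y hy.1 hy.2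

end amuc

section noauc

variable {X : Type*} [NormedAddCommGroup X] [NormedSpace ℝ X]

/-- Weakly null trees with bounded branches. -/
def Tree (X : Type*) [NormedAddCommGroup X] [NormedSpace ℝ X] : ℕ → X → Prop
  | 0, g => ‖g‖ = 1
  | h + 1, g => ‖g‖ = 1 ∧ ∃ u : ℕ → X,
      (∀ φ : StrongDual ℝ X, Tendsto (fun k => φ (u k)) atTop (𝓝 0)) ∧
      (∀ k, 1 ≤ ‖u k‖) ∧ ∀ k, Tree X h (g + u k)

lemma IsEquivNorm.neg_eq {N : X → ℝ} (hN : IsEquivNorm N) (x : X) : N (-x) = N x := by
  have := hN.smul (-1) x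
  simpa using this

lemma IsEquivNorm.zero_eq {N : X → ℝ} (hN : IsEquivNorm N) : N 0 = 0 := by
  have := hN.smul 0 0
  simpa using this

lemma convex_decomp (x y : X) {lam s t : ℝ} (h : lam * s = t) :
    x + t • y = (1 - lam) • x + lam • (x + s • y) := by
  rw [smul_add, smul_smul, h, sub_smul, one_smul]
  abel

lemma scale_decomp (g f : X) {p q : ℝ} (hp : p ≠ 0) (hq : q ≠ 0) :
    g + f = p • (p⁻¹ • g + (q / p) • (q⁻¹ • f)) := by
  rw [smul_add, smul_smul, mul_inv_cancel₀ hp, one_smul, smul_smul, smul_smul]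
  have : p * (q / p) * q⁻¹ = 1 := by
    field_simp
  rw [this, one_smul]

/-- The growth step forced by an asymptotically uniformly convex equivalent norm. -/
lemma growth_step {N : X → ℝ} (hN : IsEquivNorm N) {c C b t₀ : ℝ} (hc : 0 < c) (hC : 0 < C)
    (hbd : ∀ x, c * ‖x‖ ≤ N x ∧ N x ≤ C * ‖x‖) (hb : 0 < b) (ht₀ : t₀ = c / (2 * C))
    (hstep : ∀ x, N x = 1 → ∃ F ∈ cof X, ∀ y, y ∈ F → N y = 1 → b < N (x + t₀ • y) - 1)
    {g : X} (hg : ‖g‖ = 1) {u : ℕ → X}
    (hu : ∀ φ : StrongDual ℝ X, Tendsto (fun k => φ (u k)) atTop (𝓝 0))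
    (hu1 : ∀ k, 1 ≤ ‖u k‖) :
    ∃ k, N g * (1 + b / 2) ≤ N (g + u k) := by
  have ht₀pos : 0 < t₀ := by rw [ht₀]; positivity
  have hNg1 : c ≤ N g := by
    have := (hbd g).1
    rwa [hg, mul_one] at this
  have hNg2 : N g ≤ C := by
    have := (hbd g).2
    rwa [hg, mul_one] at this
  have hNgpos : 0 < N g := lt_of_lt_of_le hc hNg1
  set x : X := (N g)⁻¹ • g with hx
  have hNx : N x = 1 := by
    rw [hx, hN.smul, abs_of_pos (inv_pos.mpr hNgpos), inv_mul_cancel₀ hNgpos.ne']
  obtain ⟨F, hF, hFb⟩ := hstep x hNx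
  set η : ℝ := min (c / (2 * C)) (c * b / (2 * C)) with hη
  have hηpos : 0 < η := lt_min (by positivity) (by positivity)
  obtain ⟨k, f, hf, hclose⟩ := exists_close hF hu hηpos
  refine ⟨k, ?_⟩
  -- bounds on the perturbation
  have hCη1 : C * ‖u k - f‖ ≤ c / 2 := by
    have h1 : ‖u k - f‖ ≤ c / (2 * C) := hclose.le.trans (min_le_left _ _)
    calc C * ‖u k - f‖ ≤ C * (c / (2 * C)) := mul_le_mul_of_nonneg_left h1 hC.le
      _ = c / 2 := by field_simp
  have hCη2 : C * ‖u k - f‖ ≤ c * b / 2 := by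
    have h1 : ‖u k - f‖ ≤ c * b / (2 * C) := hclose.le.trans (min_le_right _ _)
    calc C * ‖u k - f‖ ≤ C * (c * b / (2 * C)) := mul_le_mul_of_nonneg_left h1 hC.le
      _ = c * b / 2 := by field_simp
  have hNd : N (u k - f) ≤ C * ‖u k - f‖ := (hbd _).2
  have hNuk : c ≤ N (u k) := by
    have h1 := (hbd (u k)).1
    have h2 := hu1 k
    nlinarith
  have hNf : c / 2 ≤ N f := by
    have e : u k = f + (u k - f) := by abel
    have h1 := hN.add_le f (u k - f)
    rw [← e] at h1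
    linarith
  have hNfpos : 0 < N f := lt_of_lt_of_le (by positivity) hNf
  set y : X := (N f)⁻¹ • f with hy
  have hyF : y ∈ F := F.smul_mem _ hf
  have hNy : N y = 1 := by
    rw [hy, hN.smul, abs_of_pos (inv_pos.mpr hNfpos), inv_mul_cancel₀ hNfpos.ne']
  have hkey := hFb y hyF hNy
  -- convexity in the step length
  set s : ℝ := N f / N g with hs
  have hspos : 0 < s := div_pos hNfpos hNgpos
  have hst : t₀ ≤ s := by
    rw [hs, ht₀, div_le_div_iff₀ (by positivity) hNgpos]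
    nlinarith
  set lam : ℝ := t₀ / s with hlam
  have hlampos : 0 < lam := div_pos ht₀pos hspos
  have hlam1 : lam ≤ 1 := (div_le_one hspos).mpr hst
  have hdecomp : x + t₀ • y = (1 - lam) • x + lam • (x + s • y) := by
    have e1 : lam * s = t₀ := by
      rw [hlam]; field_simp
    exact convex_decomp x y e1
  have hconv : N (x + t₀ • y) ≤ (1 - lam) + lam * N (x + s • y) := by
    have h1 := hN.smul (1 - lam) x
    have h2 := hN.smul lam (x + s • y)
    have h3 := hN.add_le ((1 - lam) • x) (lam • (x + s • y))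
    rw [h1, h2, hNx, abs_of_nonneg (by linarith : (0 : ℝ) ≤ 1 - lam), abs_of_pos hlampos,
      mul_one] at h3
    rw [hdecomp]
    exact h3
  have hNs : 1 + b < N (x + s • y) := by
    have h1 : b < lam * (N (x + s • y) - 1) := by linarith
    by_contra hcon
    push Not at hcon
    have h2 : N (x + s • y) - 1 ≤ b := by linarith
    have h3 : lam * (N (x + s • y) - 1) ≤ 1 * b := by
      rcases le_or_gt 0 (N (x + s • y) - 1) with h4 | h4
      · exact mul_le_mul hlam1 h2 h4 zero_le_one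
      · nlinarith
    linarith
  have hscale : g + f = N g • (x + s • y) := scale_decomp g f hNgpos.ne' hNfpos.ne'
  have hNgf : N g * (1 + b) ≤ N (g + f) := by
    rw [hscale, hN.smul, abs_of_pos hNgpos]
    exact mul_le_mul_of_nonneg_left hNs.le hNgpos.le
  have htri : N (g + f) ≤ N (g + u k) + N (u k - f) := by
    have e : g + f = (g + u k) + (-(u k - f)) := by abel
    rw [e]
    refine (hN.add_le _ _).trans ?_
    rw [hN.neg_eq]
  have hcb : c * b ≤ N g * b := mul_le_mul_of_nonneg_right hNg1 hb.le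
  have : N g * (1 + b) = N g + N g * b := by ring
  have h5 : N g * (1 + b / 2) = N g + N g * b / 2 := by ring
  rw [h5]
  linarith

/-- Arbitrarily high weakly null trees with bounded branches exclude every equivalent
asymptotically uniformly convex norm. -/
theorem no_auc_of_trees (htree : ∀ m, ∃ g : X, Tree X m g) :
    ¬ ∃ N : X → ℝ, IsEquivNorm N ∧ IsAUC N := by
  rintro ⟨N, hN, hA⟩
  obtain ⟨c, C, hc, hC, hbd⟩ := hN.bounds
  set t₀ : ℝ := c / (2 * C) with ht₀
  have ht₀pos : 0 < t₀ := by positivity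
  have hm := hA t₀ ht₀pos
  obtain ⟨b, hb0, hb⟩ := EReal.lt_iff_exists_real_btwn.mp hm
  have hb0' : 0 < b := by exact_mod_cast hb0
  have hstep : ∀ x, N x = 1 → ∃ F ∈ cof X, ∀ y, y ∈ F → N y = 1 → b < N (x + t₀ • y) - 1 := by
    intro x hx
    unfold aucModulus at hb
    have h1 : (b : EReal) < ⨆ F ∈ cof X, ⨅ y ∈ {y : X | y ∈ F ∧ N y = 1},
        ((N (x + t₀ • y) - 1 : ℝ) : EReal) :=
      lt_of_lt_of_le hb (iInf₂_le x hx)
    simp only [lt_iSup_iff] at h1
    obtain ⟨F, hF, h2⟩ := h1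
    refine ⟨F, hF, fun y hyF hy => ?_⟩
    have h3 := lt_of_lt_of_le h2 (iInf₂_le y ⟨hyF, hy⟩)
    exact_mod_cast h3
  have grow : ∀ h g, Tree X h g → N g * (1 + b / 2) ^ h ≤ C := by
    intro h
    induction h with
    | zero =>
      intro g hg
      have hg1 : ‖g‖ = 1 := hg
      have := (hbd g).2
      rw [hg1, mul_one] at this
      simpa using this
    | succ h ih =>
      intro g hg
      obtain ⟨hg1, u, hu, hu1, hT⟩ := hg
      obtain ⟨k, hk⟩ := growth_step hN hc hC hbd hb0' ht₀ hstep hg1 hu hu1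
      have h3 := ih (g + u k) (hT k)
      have hpos : 0 ≤ (1 + b / 2) ^ h := by positivity
      calc N g * (1 + b / 2) ^ (h + 1) = (N g * (1 + b / 2)) * (1 + b / 2) ^ h := by ring
        _ ≤ N (g + u k) * (1 + b / 2) ^ h := mul_le_mul_of_nonneg_right hk hpos
        _ ≤ C := h3
  obtain ⟨m, hm⟩ := pow_unbounded_of_one_lt (C / c) (show 1 < 1 + b / 2 by linarith)
  obtain ⟨g, hg⟩ := htree m
  have h1 := grow m g hg
  have hg1 : ‖g‖ = 1 := by
    cases m with
    | zero => exact hg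
    | succ m => exact hg.1
  have hNg : c ≤ N g := by
    have := (hbd g).1
    rwa [hg1, mul_one] at this
  have h2 : c * (1 + b / 2) ^ m ≤ C :=
    (mul_le_mul_of_nonneg_right hNg (by positivity)).trans h1
  have h3 : C / c * c < (1 + b / 2) ^ m * c := mul_lt_mul_of_pos_right hm hc
  rw [div_mul_cancel₀ _ hc.ne'] at h3
  linarith

/-- A space with a weakly null sequence staying away from zero is infinite dimensional. -/
theorem not_finiteDimensional_of_tree {g : X} (h : Tree X 1 g) : ¬ FiniteDimensional ℝ X := by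
  intro hfin
  obtain ⟨_, u, hu, hu1, _⟩ := h
  have hF : (⊥ : Submodule ℝ X) ∈ cof X := by
    refine ⟨?_, inferInstance⟩
    simp
  obtain ⟨k, f, hf, hclose⟩ := exists_close hF hu one_pos
  have : f = 0 := by simpa using hf
  rw [this, sub_zero] at hclose
  linarith [hu1 k]

end noauc

end Vale.Agent.Lib.P069
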