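import Mathlib
import Vale.Agent.Lib.P069.Moduli

open Filter Topology
open scoped ENNReal

namespace Vale.Agent.Lib.P069

open PB

/-- Trees of top vectors in a pointed normed space. -/
def TreeP (Y : PB) : ℕ → Y.E → Prop
  | 0, g => ‖g‖ = 1 ∧ Y.L g = 1
  | h + 1, g => ‖g‖ = 1 ∧ Y.L g = 1 ∧ ∃ u : ℕ → Y.E,
      (∀ φ : StrongDual ℝ Y.E, Tendsto (fun k => φ (u k)) atTop (𝓝 0)) ∧
      (∀ k, 1 ≤ ‖u k‖) ∧ ∀ k, TreeP Y h (g + u k)

lemma TreeP.norm {Y : PB} : ∀ {h : ℕ} {g : Y.E}, TreeP Y h g → ‖g‖ = 1
  | 0, _, hg => hg.1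
  | _ + 1, _, hg => hg.1

lemma TreeP.toTree {Y : PB} : ∀ {h : ℕ} {g : Y.E}, TreeP Y h g → Tree Y.E h g
  | 0, _, hg => hg.1
  | _ + 1, _, hg => by
    obtain ⟨h1, _, u, hu, hu1, hT⟩ := hg
    exact ⟨h1, u, hu, hu1, fun k => TreeP.toTree (hT k)⟩

section step

variable {Z : ℕ → PB}

lemma l2_single (f : ∀ j, (Z j).E → ℝ) (hf : ∀ j, f j 0 = 0) (k : ℕ) (w : (Z k).E) :
    l2 (fun j => f j ((lp.single 2 k w : L2Z Z) j)) = |f k w| := by
  have h1 : (fun j => f j ((lp.single 2 k w : L2Z Z) j)) = fun j => if j = k then f k w else 0 := by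
    funext j
    by_cases hj : j = k
    · subst hj
      rw [lp.single_apply_self, if_pos rfl]
    · rw [lp.single_apply_ne _ _ _ hj, if_neg hj, hf]
  rw [h1]
  unfold l2
  have h2 : (fun j => (if j = k then f k w else 0) ^ 2) = fun j => if j = k then f k w ^ 2 else 0 := by
    funext j
    split_ifs <;> simp
  rw [h2, tsum_ite_eq, Real.sqrt_sq_eq_abs]

/-- Inclusion of the sequence part. -/
noncomputable def inclL : L2Z Z →L[ℝ] StepE Z :=
  LinearMap.mkContinuous
    { toFun := fun w => StepE.mk 0 w
      map_add' := fun x y => by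
        apply StepE.ext
        · simp
        · simp
      map_smul' := fun r x => by
        apply StepE.ext
        · simp
        · simp } 2
    fun w => by
      have := StepE.norm_le (StepE.mk 0 w)
      simpa using this

lemma inclL_apply (w : L2Z Z) : inclL w = StepE.mk 0 w := rfl

/-- The child inclusion. -/
noncomputable def incl (k : ℕ) : (Z k).E →L[ℝ] StepE Z :=
  inclL.comp (lp.singleContinuousLinearMap ℝ (fun k => (Z k).E) 2 k)

lemma incl_apply (k : ℕ) (w : (Z k).E) : incl k w = StepE.mk 0 (lp.single 2 k w) := rfl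

lemma le_norm_incl (k : ℕ) (w : (Z k).E) : ‖w‖ ≤ ‖incl k w‖ := by
  have h1 := StepE.norm_w_le (incl k w)
  rw [incl_apply, StepE.mk_w, lp.norm_single (by norm_num)] at h1
  exact h1

/-- A top vector with one child. -/
noncomputable def cons (k : ℕ) (w : (Z k).E) : StepE Z := StepE.mk 1 (lp.single 2 k w)

lemma cons_add_incl (k : ℕ) (w u : (Z k).E) : cons k w + incl k u = cons k (w + u) := by
  apply StepE.ext
  · simp [cons, incl_apply]
  · simp [cons, incl_apply, lp.single_add]

lemma norm_cons {k : ℕ} {w : (Z k).E} (h1 : ‖w‖ = 1) (h2 : (Z k).L w = 1) : ‖cons k w‖ = 1 := by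
  have hn : ‖cons k w‖ = stepFun Z 1 (lp.single 2 k w) := rfl
  have hm := l2_single (Z := Z) (fun j v => (Z j).Dm v) (fun j => Dm_zero) k w
  have hp := l2_single (Z := Z) (fun j v => (Z j).Dp v) (fun j => Dp_zero) k w
  have e1 : (Z k).Dm w = 0 := by unfold PB.Dm; rw [h1, h2]; ring
  have e2 : (Z k).Dp w = 2 := by unfold PB.Dp; rw [h1, h2]; ring
  rw [hn]
  unfold stepFun
  simp only [] at hm hp
  rw [hm, hp, e1, e2]
  norm_num

/-- The root vector. -/
noncomputable def root : StepE Z := StepE.mk 1 0

lemma root_add_incl (k : ℕ) (w : (Z k).E) : root + incl k w = cons k w := by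
  apply StepE.ext
  · simp [root, cons, incl_apply]
  · simp [root, cons, incl_apply]

lemma norm_root : ‖(root : StepE Z)‖ = 1 := by
  have hn : ‖(root : StepE Z)‖ = stepFun Z 1 0 := rfl
  have h1 : (fun k => (Z k).Dm ((0 : L2Z Z) k)) = fun _ => 0 := by
    funext k
    rw [lp.coeFn_zero, Pi.zero_apply, PB.Dm_zero]
  have h2 : (fun k => (Z k).Dp ((0 : L2Z Z) k)) = fun _ => 0 := by
    funext k
    rw [lp.coeFn_zero, Pi.zero_apply, PB.Dp_zero]
  rw [hn]
  unfold stepFun
  rw [h1, h2]
  simp [l2]

/-- Trees lift from a child to the tree step. -/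
theorem treeP_lift (k : ℕ) : ∀ {h : ℕ} {w : (Z k).E}, TreeP (Z k) h w →
    TreeP (step Z) h (cons k w)
  | 0, w, hw => ⟨norm_cons hw.1 hw.2, rfl⟩
  | h + 1, w, hw => by
    obtain ⟨h1, h2, u, hu, hu1, hT⟩ := hw
    refine ⟨norm_cons h1 h2, rfl, fun j => incl k (u j), ?_, ?_, ?_⟩
    · intro φ
      exact hu (φ.comp (incl k))
    · intro j
      exact (hu1 j).trans (le_norm_incl k (u j))
    · intro j
      have := treeP_lift k (hT j)
      have e : cons k w + incl k (u j) = cons k (w + u j) := cons_add_incl k w (u j)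
      exact Eq.mpr (congrArg (TreeP (step Z) h) e) this

/-- Trees of height one more at the root. -/
theorem treeP_root {h : ℕ} {v : ∀ k, (Z k).E} (hv : ∀ k, TreeP (Z k) h (v k)) :
    TreeP (step Z) (h + 1) (root : StepE Z) := by
  refine ⟨norm_root, rfl, fun k => incl k (v k), ?_, ?_, ?_⟩
  · intro φ
    have hb : ∀ k, ‖v k‖ ≤ 1 := fun k => (hv k).norm.le
    exact tendsto_apply_single (Z := fun k => (Z k).E) (φ.comp inclL) v hb
  · intro k
    have := le_norm_incl k (v k)
    rwa [(hv k).norm] at this
  · intro k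
    have e : root + incl k (v k) = cons k (v k) := root_add_incl k (v k)
    exact Eq.mpr (congrArg (TreeP (step Z) h) e) (treeP_lift k (hv k))

end step

/-- The one point space as a pointed space. -/
noncomputable def trivialPB : PB where
  E := PUnit
  L := 0
  L_le := fun _ => by simp

instance : Subsingleton trivialPB.E := inferInstanceAs (Subsingleton PUnit)

lemma far_trivial : Far trivialPB := by
  intro y _ hη
  refine ⟨y, ?_, ∅, fun _ => 0, fun z _ => ?_⟩
  · have : y - y = 0 := sub_self y
    rw [this, norm_zero]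
    exact hη.le
  · have h1 : ‖z‖ = 0 := by
      have : z = 0 := Subsingleton.elim _ _
      rw [this, norm_zero]
    have h2 : gain y z = 0 := by
      unfold gain
      have e1 : y + z = 0 := Subsingleton.elim _ _
      have e2 : y - z = 0 := Subsingleton.elim _ _
      have e3 : y = 0 := Subsingleton.elim _ _
      rw [e1, e2, e3]
      simp
    have hL : trivialPB.L z = 0 := rfl
    refine ⟨le_rfl, ?_, ?_, ?_⟩
    · rw [h1]
    · rw [h1, hL]; simp
    · unfold pot
      rw [h2]
      simp

lemma refl_trivial : Refl trivialPB.E := by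
  intro Φ
  refine ⟨0, ?_⟩
  ext ξ
  have h1 : ξ = 0 := by
    ext v
    have : v = 0 := Subsingleton.elim _ _
    rw [this, map_zero]
    rfl
  rw [h1, map_zero]
  simp

/-- The spaces of finite height. -/
noncomputable def level : ℕ → PB
  | 0 => trivialPB
  | n + 1 => step fun _ => level n

lemma far_level : ∀ n, Far (level n)
  | 0 => far_trivial
  | n + 1 => far_step fun _ => far_level n

lemma refl_level : ∀ n, Refl (level n).E
  | 0 => refl_trivial
  | n + 1 => refl_step (Z := fun _ => level n) fun _ => refl_level n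

lemma complete_level : ∀ n, CompleteSpace (level n).E
  | 0 => inferInstanceAs (CompleteSpace PUnit)
  | n + 1 => completeSpace_step (Z := fun _ => level n) fun _ => complete_level n

lemma tree_level : ∀ h, ∃ g, TreeP (level (h + 1)) h g
  | 0 => ⟨(root : StepE fun _ => level 0), norm_root, rfl⟩
  | h + 1 => by
    obtain ⟨g, hg⟩ := tree_level h
    exact ⟨(root : StepE fun _ => level (h + 1)), treeP_root (Z := fun _ => level (h + 1))
      (v := fun _ => g) fun _ => hg⟩

/-- The final space: all heights glued at a common root. -/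
noncomputable def topPB : PB := step level

lemma far_top : Far topPB := far_step far_level

lemma refl_top : Refl topPB.E := refl_step (Z := level) refl_level

lemma complete_top : CompleteSpace topPB.E := completeSpace_step (Z := level) complete_level

lemma tree_top (m : ℕ) : ∃ g : topPB.E, Tree topPB.E m g := by
  obtain ⟨g, hg⟩ := tree_level m
  exact ⟨cons (Z := level) (m + 1) g, (treeP_lift (Z := level) (m + 1) hg).toTree⟩

/-- The answer to the reflexive case: a reflexive Banach space which is asymptotically midpoint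
uniformly convex but has no equivalent asymptotically uniformly convex norm. -/
theorem main_theorem :
    ∃ (X : Type) (_ : NormedAddCommGroup X) (_ : NormedSpace ℝ X) (_ : CompleteSpace X),
      ¬ FiniteDimensional ℝ X ∧
      Function.Surjective (NormedSpace.inclusionInDoubleDual ℝ X) ∧
      IsAMUC (fun x : X => ‖x‖) ∧
      ¬ ∃ N : X → ℝ, IsEquivNorm N ∧ IsAUC N := by
  refine ⟨topPB.E, inferInstance, inferInstance, complete_top, ?_, refl_top,
    isAMUC_of_far far_top, no_auc_of_trees tree_top⟩
  obtain ⟨g, hg⟩ := tree_top 1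
  exact not_finiteDimensional_of_tree hg

end Vale.Agent.Lib.P069
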